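import Mathlib

/-!
# P069: definitions (asymptotic moduli of a norm, AUC, AMUC, equivalent norms, reflexivity)
-/

namespace Vale.Agent.Lib.P069

/-- `Cof X`: the closed linear subspaces of finite codimension of the normed space `X`. -/
def Cof (X : Type*) [NormedAddCommGroup X] [NormedSpace ℝ X] : Type _ :=
  {F : Submodule ℝ X // IsClosed (F : Set X) ∧ FiniteDimensional ℝ (X ⧸ F)}

variable {X : Type*} [NormedAddCommGroup X] [NormedSpace ℝ X]

/-- `N` is a norm on `X` equivalent to the given norm of `X`. -/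
def IsEquivNorm (N : Seminorm ℝ X) : Prop :=
  ∃ a b : ℝ, 0 < a ∧ 0 < b ∧ ∀ x : X, a * ‖x‖ ≤ N x ∧ N x ≤ b * ‖x‖

/-- The modulus of asymptotic uniform convexity of `N`:
`inf_{N x = 1} sup_{F in cof X} inf_{y in F, N y = 1} (N (x + t y) - 1)`. -/
noncomputable def aucModulus (N : Seminorm ℝ X) (t : ℝ) : ℝ :=
  ⨅ x : {x : X // N x = 1}, ⨆ F : Cof X, ⨅ y : {y : X // y ∈ F.1 ∧ N y = 1},
    (N (x.1 + t • y.1) - 1)

/-- The modulus of asymptotic midpoint uniform convexity of `N`:
`inf_{N x = 1} sup_{F in cof X} inf_{y in F, N y = 1} (max (N (x + t y)) (N (x - t y)) - 1)`. -/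
noncomputable def amucModulus (N : Seminorm ℝ X) (t : ℝ) : ℝ :=
  ⨅ x : {x : X // N x = 1}, ⨆ F : Cof X, ⨅ y : {y : X // y ∈ F.1 ∧ N y = 1},
    (max (N (x.1 + t • y.1)) (N (x.1 - t • y.1)) - 1)

/-- `N` is asymptotically uniformly convex. -/
def IsAUC (N : Seminorm ℝ X) : Prop := ∀ t : ℝ, 0 < t → 0 < aucModulus N t

/-- `N` is asymptotically midpoint uniformly convex. -/
def IsAMUC (N : Seminorm ℝ X) : Prop := ∀ t : ℝ, 0 < t → 0 < amucModulus N t

/-- `X` is reflexive: the canonical map into the bidual is onto. -/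
def IsReflexiveSpace (X : Type*) [NormedAddCommGroup X] [NormedSpace ℝ X] : Prop :=
  Function.Surjective (NormedSpace.inclusionInDoubleDual ℝ X)

end Vale.Agent.Lib.P069
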