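import Vale.Agent.Lib.P069.Shrink
import Vale.Agent.Lib.P069.Defs

/-!
# P069: the dual norm of `Xs` is asymptotically midpoint uniformly convex (estimate)
-/

namespace Vale.Agent.Lib.P069

open scoped ENNReal

/-- The functionals vanishing at the unit vectors of `A`: a closed subspace of finite
codimension of `Xs`. -/
noncomputable def evalMap (A : Finset (ℕ × Node)) : Xs →L[ℝ] (A → ℝ) :=
  ContinuousLinearMap.pi (fun a => ContinuousLinearMap.apply ℝ ℝ (eZ a.1.1 a.1.2))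

noncomputable def cofKer (A : Finset (ℕ × Node)) : Cof Xs :=
  ⟨LinearMap.ker (evalMap A).toLinearMap, (evalMap A).isClosed_ker,
    (LinearMap.quotKerEquivRange (evalMap A).toLinearMap).symm.finiteDimensional⟩

theorem mem_cofKer {A : Finset (ℕ × Node)} {y : Xs} :
    y ∈ (cofKer A).1 ↔ ∀ a ∈ A, y (eZ a.1 a.2) = 0 := by
  unfold cofKer
  simp only [LinearMap.mem_ker]
  constructor
  · intro h a ha
    exact congrFun h ⟨a, ha⟩
  · intro h
    funext a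
    exact h a.1 a.2

/-- A functional of norm one almost attains its norm. -/
theorem exists_almost_norming {E : Type*} [NormedAddCommGroup E] [NormedSpace ℝ E]
    (x : StrongDual ℝ E) (r : ℝ) (hr : r < ‖x‖) : ∃ z : E, ‖z‖ ≤ 1 ∧ r < x z := by
  obtain ⟨z, hz, hz'⟩ := x.exists_lt_apply_of_lt_opNorm hr
  rw [Real.norm_eq_abs] at hz'
  rcases le_total 0 (x z) with h | h
  · exact ⟨z, hz.le, by rwa [abs_of_nonneg h] at hz'⟩
  · refine ⟨-z, by rw [norm_neg]; exact hz.le, ?_⟩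
    rw [abs_of_nonpos h] at hz'
    simpa using hz'

theorem amuc_aux (τ η : ℝ) (hτ : 0 < τ) (hη : 0 < η) (x : Xs) (A : Finset (ℕ × Node))
    (hA : ∀ n, DownClosed (sec A n))
    (hx : ∀ W : Zs, (∀ a ∈ A, coordX a.1 a.2 W = 0) → |x W| ≤ η * ‖W‖)
    (z0 : Zs) (hz0 : ∀ n, ∀ d, d ∉ sec A n → Zn.toH (z0 n) d = 0) (hz0n : ‖z0‖ ≤ 1)
    (hxz0 : 1 - 3 * η ≤ x z0) (y : Xs) (hyz0 : y z0 = 0) (w : Zs) (hw : ‖w‖ ≤ 1)
    (hyw : 1 / 4 ≤ y (trZs A hA z0 hz0 w)) :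
    1 - 3 * η - τ / 8 * η + τ ^ 2 / 64 ≤ ‖x + τ • y‖ * (1 + τ ^ 2 / 128) := by
  set ε : ℝ := τ / 16 with hε
  have hε0 : 0 ≤ ε := by positivity
  set W := trZs A hA z0 hz0 w with hW
  have hWn : ‖W‖ ≤ 2 := (norm_trZs_le A hA z0 hz0 w).trans (by linarith)
  have hxW : |x W| ≤ η * 2 := by
    refine (hx W (fun a ha => coordX_trZs_of_mem A hA z0 hz0 w a ha)).trans ?_
    gcongr
  have hv : ‖z0 + ε • W‖ ≤ 1 + τ ^ 2 / 128 := by
    have h := norm_add_smul_trZs_sq_le A hA z0 hz0 w ε hε0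
    apply abs_le_of_sq_le_sq' _ (by positivity) |>.2
    have h1 : ‖z0‖ ^ 2 ≤ 1 := by
      have := norm_nonneg z0; nlinarith
    have h2 : ‖w‖ ^ 2 ≤ 1 := by
      have := norm_nonneg w; nlinarith
    have h3 : 0 ≤ ε ^ 2 := by positivity
    have h4 : 4 * ε ^ 2 * ‖w‖ ^ 2 ≤ 4 * ε ^ 2 := by nlinarith
    have h5 : 4 * ε ^ 2 = τ ^ 2 / 64 := by rw [hε]; ring
    have h6 : 0 ≤ (τ ^ 2 / 128) ^ 2 := by positivity
    nlinarith
  have hpair : (x + τ • y) (z0 + ε • W) = x z0 + ε * x W + τ * ε * y W := by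
    simp only [add_apply, map_add, map_smul, smul_eq_mul, hyz0,
      smul_apply]
    ring
  have hle : (x + τ • y) (z0 + ε • W) ≤ ‖x + τ • y‖ * (1 + τ ^ 2 / 128) := by
    refine (le_abs_self _).trans ?_
    rw [← Real.norm_eq_abs]
    refine ((x + τ • y).le_opNorm _).trans ?_
    gcongr
  rw [hpair] at hle
  have h7 : -(η * 2) ≤ x W := (abs_le.1 hxW).1
  have h8 : ε * (-(η * 2)) ≤ ε * x W := by gcongr
  have h9 : τ * ε * (1 / 4) ≤ τ * ε * y W := by gcongr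
  have h10 : ε * (-(η * 2)) = - (τ / 8 * η) := by rw [hε]; ring
  have h11 : τ * ε * (1 / 4) = τ ^ 2 / 64 := by rw [hε]; ring
  linarith

theorem Xs.amuc_estimate (τ : ℝ) (hτ : 0 < τ) :
    ∃ c : ℝ, 0 < c ∧ ∀ x : Xs, ‖x‖ = 1 → ∃ F : Cof Xs, ∀ y ∈ F.1, ‖y‖ = 1 →
      1 + c ≤ max ‖x + τ • y‖ ‖x - τ • y‖ := by
  set D : ℝ := 1 + τ ^ 2 / 128 with hD
  have hD0 : 0 < D := by positivity
  set c : ℝ := (3 * τ ^ 2 / 512) / D with hc
  have hcD : c * D = 3 * τ ^ 2 / 512 := div_mul_cancel₀ _ hD0.ne'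
  set η : ℝ := (τ ^ 2 / 512) / (3 + τ / 8) with hη
  have hη0 : 0 < η := by positivity
  have hηm : η * (3 + τ / 8) = τ ^ 2 / 512 := div_mul_cancel₀ _ (by positivity)
  refine ⟨c, by positivity, ?_⟩
  intro x hx1
  obtain ⟨A, hA, hx⟩ := Xs.shrink x η hη0
  refine ⟨cofKer A, ?_⟩
  intro y hy hy1
  rw [mem_cofKer] at hy
  obtain ⟨z1, hz1, hxz1⟩ := exists_almost_norming x (1 - η) (by rw [hx1]; linarith)
  obtain ⟨w, hw, hyw⟩ := exists_almost_norming y (1 / 2) (by rw [hy1]; norm_num)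
  set z0 := restrZs A hA z1 with hz0def
  have hz0 : ∀ n, ∀ d, d ∉ sec A n → Zn.toH (z0 n) d = 0 := restrZs_vanish A hA z1
  have hz0n : ‖z0‖ ≤ 1 := (norm_restrZs_le A hA z1).trans hz1
  have hdiff : |x (z1 - z0)| ≤ η * 2 := by
    refine (hx (z1 - z0) ?_).trans ?_
    · intro a ha
      rw [map_sub, hz0def, coordX_restrZs, if_pos ha, sub_self]
    · gcongr
      calc ‖z1 - z0‖ ≤ ‖z1‖ + ‖z0‖ := norm_sub_le _ _
        _ ≤ 2 := by linarith
  have hxz0 : 1 - 3 * η ≤ x z0 := by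
    have h1 : x z0 = x z1 - x (z1 - z0) := by rw [map_sub]; ring
    have h2 := (abs_le.1 hdiff).2
    linarith
  have hyz0 : y z0 = 0 := apply_restrZs_eq_zero A hA z1 y hy
  have hsplit : y w = y (trZs A hA z0 hz0 w) - y (trZs A hA z0 hz0 (-w)) := by
    have h1 := congrArg y (trZs_sub_trZs_neg A hA z0 hz0 w)
    rw [map_sub, map_sub, apply_restrZs_eq_zero A hA w y hy] at h1
    linarith
  have hnum : (1 + c) * D = 1 - 3 * η - τ / 8 * η + τ ^ 2 / 64 := by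
    have : (1 + c) * D = D + c * D := by ring
    rw [this, hcD, hD]
    have : 3 * η + τ / 8 * η = τ ^ 2 / 512 := by rw [← hηm]; ring
    linarith
  by_cases hcase : 1 / 4 ≤ y (trZs A hA z0 hz0 w)
  · have := amuc_aux τ η hτ hη0 x A hA hx z0 hz0 hz0n hxz0 y hyz0 w hw hcase
    rw [← hnum] at this
    exact le_max_of_le_left (le_of_mul_le_mul_right this hD0)
  · have hcase' : 1 / 4 ≤ (-y) (trZs A hA z0 hz0 (-w)) := by
      rw [not_le] at hcase
      simp only [neg_apply]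
      linarith
    have := amuc_aux τ η hτ hη0 x A hA hx z0 hz0 hz0n hxz0 (-y) (by simp [hyz0]) (-w)
      (by rw [norm_neg]; exact hw) hcase'
    rw [← hnum, smul_neg, ← sub_eq_add_neg] at this
    exact le_max_of_le_right (le_of_mul_le_mul_right this hD0)

end Vale.Agent.Lib.P069
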