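import Vale.Agent.Lib.P069.Main

/-!
# P069: the counterexample stated with explicit quantifiers (no moduli)
-/

namespace Vale.Agent.Lib.P069

theorem Xs.not_auc_explicit (hZ : IsReflexiveSpace Zs) (N : Seminorm ℝ Xs) (a b : ℝ) (ha : 0 < a)
    (hb : 0 < b) (hab : ∀ x : Xs, a * ‖x‖ ≤ N x ∧ N x ≤ b * ‖x‖)
    (hauc : ∀ t : ℝ, 0 < t → ∃ c : ℝ, 0 < c ∧ ∀ x : Xs, N x = 1 → ∃ F : Submodule ℝ Xs,
      IsClosed (F : Set Xs) ∧ FiniteDimensional ℝ (Xs ⧸ F) ∧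
        ∀ y ∈ F, N y = 1 → 1 + c ≤ N (x + t • y)) : False := by
  obtain ⟨c, hc, hF'⟩ := hauc (a / (2 * b)) (by positivity)
  have hF : ∀ x : Xs, N x = 1 → ∃ F : Cof Xs, ∀ y ∈ F.1, N y = 1 →
      1 + c ≤ N (x + (a / (2 * b)) • y) := by
    intro x hx
    obtain ⟨F, h1, h2, h3⟩ := hF' x hx
    exact ⟨⟨F, h1, h2⟩, h3⟩
  have key : ∀ n k : ℕ, k ≤ n → ∃ t : Node, t.length = k ∧ a + k * (a * c / 2) ≤ N (pathX n t) := by
    intro n k
    induction k with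
    | zero =>
      intro _
      refine ⟨[], rfl, ?_⟩
      have h1 := (hab (pathX n [])).1
      have h2 := one_le_norm_pathX n []
      simp only [Nat.cast_zero, zero_mul, add_zero]
      nlinarith
    | succ k ih =>
      intro hk
      obtain ⟨t, ht, hNt⟩ := ih (by omega)
      obtain ⟨j, hj⟩ := nonAUC_step hZ N a b c ha hb hab hc hF n t (by omega)
      refine ⟨j :: t, by simp [ht], ?_⟩
      push_cast
      linarith
  obtain ⟨n, hn⟩ := exists_nat_gt (b / (a * c / 2))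
  obtain ⟨t, ht, hNt⟩ := key n n le_rfl
  have h1 := (hab (pathX n t)).2
  have h2 := norm_pathX_le n t ht.le
  have h3 : b < n * (a * c / 2) := by
    rwa [div_lt_iff₀ (by positivity)] at hn
  nlinarith

theorem main_counterexample_explicit :
    ∃ (X : Type) (_ : NormedAddCommGroup X) (_ : NormedSpace ℝ X) (_ : CompleteSpace X),
      ¬ FiniteDimensional ℝ X ∧
      Function.Surjective (NormedSpace.inclusionInDoubleDual ℝ X) ∧
      (∀ t : ℝ, 0 < t → ∃ c : ℝ, 0 < c ∧ ∀ x : X, ‖x‖ = 1 → ∃ F : Submodule ℝ X,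
        IsClosed (F : Set X) ∧ FiniteDimensional ℝ (X ⧸ F) ∧
          ∀ y ∈ F, ‖y‖ = 1 → 1 + c ≤ max ‖x + t • y‖ ‖x - t • y‖) ∧
      ¬ ∃ N : Seminorm ℝ X,
        (∃ a b : ℝ, 0 < a ∧ 0 < b ∧ ∀ x : X, a * ‖x‖ ≤ N x ∧ N x ≤ b * ‖x‖) ∧
        ∀ t : ℝ, 0 < t → ∃ c : ℝ, 0 < c ∧ ∀ x : X, N x = 1 → ∃ F : Submodule ℝ X,
          IsClosed (F : Set X) ∧ FiniteDimensional ℝ (X ⧸ F) ∧
            ∀ y ∈ F, N y = 1 → 1 + c ≤ N (x + t • y) := by
  refine ⟨Xs, inferInstance, inferInstance, inferInstance, Xs.not_finiteDimensional,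
    Xs.reflexive, ?_, ?_⟩
  · intro t ht
    obtain ⟨c, hc, h⟩ := Xs.amuc_estimate t ht
    refine ⟨c, hc, fun x hx => ?_⟩
    obtain ⟨F, hF⟩ := h x hx
    exact ⟨F.1, F.2.1, F.2.2, hF⟩
  · rintro ⟨N, ⟨a, b, ha, hb, hab⟩, hauc⟩
    exact Xs.not_auc_explicit Zs.reflexive N a b ha hb hab hauc

end Vale.Agent.Lib.P069
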