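import Vale.Agent.Lib.P069.TreeSpace

/-!
# P069: the space `Zs` (the l2 sum of the `Zn n`), its dual `Xs`, coordinates and unit vectors
-/

namespace Vale.Agent.Lib.P069

open scoped ENNReal

/-- The l2 sum of the spaces `Zn n`. -/
noncomputable abbrev Zs := lp Zn 2

/-- The dual of `Zs`; this is the counterexample. -/
noncomputable abbrev Xs := StrongDual ℝ Zs

/-- The coordinate functional at the node `t` of the `n`-th tree. -/
noncomputable def coordX (n : ℕ) (t : Node) : Xs :=
  (lp.evalCLM ℝ (fun _ : Node => ℝ) 2 t) ∘L ((Zn.equivH n : Zn n →L[ℝ] Hs) ∘L (lp.evalCLM ℝ Zn 2 n))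

theorem coordX_apply (n : ℕ) (t : Node) (z : Zs) : coordX n t z = Zn.toH (z n) t := rfl

theorem Zs.ext_coord {z w : Zs} (h : ∀ n t, coordX n t z = coordX n t w) : z = w := by
  ext n
  exact Zn.ext_toH (fun d => h n d)

/-- The unit vector at the node `t` of the `n`-th tree. -/
noncomputable def eZ (n : ℕ) (t : Node) : Zs :=
  lp.single 2 n ((Zn.toH (n := n)).symm (lp.single 2 t (1 : ℝ)))

theorem coordX_eZ (n : ℕ) (t : Node) (m : ℕ) (s : Node) :
    coordX n t (eZ m s) = if n = m ∧ t = s then 1 else 0 := by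
  rw [coordX_apply, eZ]
  by_cases hnm : n = m
  · subst hnm
    rw [lp.single_apply_self, LinearEquiv.apply_symm_apply]
    by_cases hts : t = s
    · subst hts; simp
    · simp [hts]
  · rw [lp.single_apply_ne _ _ _ hnm]
    simp [hnm]

theorem pathSum_single (t d : Node) :
    pathSum (Pi.single t (1 : ℝ)) d = if t <:+ d then 1 else 0 := by
  induction d with
  | nil =>
    by_cases h : t = []
    · subst h; simp
    · simp [h]
  | cons j d ih =>
    rw [pathSum_cons, ih]
    by_cases h : t = j :: d
    · subst h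
      have : ¬ (j :: d) <:+ d := by
        intro hs
        have := hs.length_le
        simp at this
      simp [this]
    · have h' : (j :: d) ≠ t := fun e => h e.symm
      rw [Pi.single_eq_of_ne h']
      simp [List.suffix_cons_iff, h]

theorem norm_eZ_le (n : ℕ) (t : Node) : ‖eZ n t‖ ≤ 1 := by
  rw [eZ, lp.norm_single (by norm_num)]
  refine Zn.norm_le_of _ zero_le_one ?_ ?_
  · rw [LinearEquiv.apply_symm_apply, lp.norm_single (by norm_num)]; simp
  · intro d _
    rw [LinearEquiv.apply_symm_apply, lp.coeFn_single, pathSum_single]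
    split_ifs <;> simp

/-- The path functional `z ↦ pathSum (z n) t`. -/
noncomputable def pathX (n : ℕ) : Node → Xs
  | [] => coordX n []
  | (j :: t) => coordX n (j :: t) + pathX n t

theorem pathX_apply (n : ℕ) (t : Node) (z : Zs) : pathX n t z = pathSum (Zn.toH (z n)) t := by
  induction t with
  | nil => rfl
  | cons j t ih =>
    simp only [pathX, add_apply, ih, pathSum_cons, coordX_apply]

theorem Zs.norm_apply_le (z : Zs) (n : ℕ) : ‖z n‖ ≤ ‖z‖ :=
  lp.norm_apply_le_norm (by norm_num) z n

theorem norm_pathX_le (n : ℕ) (t : Node) (ht : t.length ≤ n) : ‖pathX n t‖ ≤ 1 := by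
  refine ContinuousLinearMap.opNorm_le_bound _ zero_le_one ?_
  intro z
  rw [pathX_apply, one_mul, Real.norm_eq_abs]
  exact (Zn.abs_pathSum_le_norm (z n) t ht).trans (Zs.norm_apply_le z n)

theorem pathX_eZ_nil (n : ℕ) (t : Node) : pathX n t (eZ n []) = 1 := by
  rw [pathX_apply, eZ, lp.single_apply_self, LinearEquiv.apply_symm_apply, lp.coeFn_single,
    pathSum_single]
  simp

theorem one_le_norm_pathX (n : ℕ) (t : Node) : 1 ≤ ‖pathX n t‖ := by
  have h := (pathX n t).le_opNorm (eZ n [])
  rw [pathX_eZ_nil] at h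
  have h2 := norm_eZ_le n []
  have h3 := norm_nonneg (pathX n t)
  simp only [norm_one] at h
  nlinarith

theorem one_le_norm_coordX (n : ℕ) (t : Node) : 1 ≤ ‖coordX n t‖ := by
  have h := (coordX n t).le_opNorm (eZ n t)
  rw [coordX_eZ] at h
  have h2 := norm_eZ_le n t
  have h3 := norm_nonneg (coordX n t)
  simp only [and_self, if_true, norm_one] at h
  nlinarith

theorem Zs.hasSum_norm_sq (z : Zs) : HasSum (fun n => ‖z n‖ ^ 2) (‖z‖ ^ 2) := by
  have h := lp.hasSum_norm (p := 2) (by norm_num) z
  simpa using h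

end Vale.Agent.Lib.P069
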