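import Vale.Agent.Lib.P069.Global

/-!
# P069: restriction and truncation on the l2 sum `Zs`
-/

namespace Vale.Agent.Lib.P069

open scoped ENNReal

/-- The section of a set of pairs at the `n`-th tree. -/
def sec (A : Finset (ℕ × Node)) (n : ℕ) : Set Node := {t | (n, t) ∈ A}

theorem mem_sec {A : Finset (ℕ × Node)} {n : ℕ} {t : Node} : t ∈ sec A n ↔ (n, t) ∈ A := Iff.rfl

/-- Restriction of `z` to the coordinates in `A`. -/
noncomputable def restrZs (A : Finset (ℕ × Node)) (hA : ∀ n, DownClosed (sec A n)) (z : Zs) : Zs :=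
  ⟨fun n => Zn.restr (sec A n) (z n), (lp.memℓp z).mono' (fun n => Zn.norm_restr_le (hA n) (z n))⟩

theorem restrZs_apply (A : Finset (ℕ × Node)) (hA : ∀ n, DownClosed (sec A n)) (z : Zs) (n : ℕ) :
    restrZs A hA z n = Zn.restr (sec A n) (z n) := rfl

theorem norm_restrZs_le (A : Finset (ℕ × Node)) (hA : ∀ n, DownClosed (sec A n)) (z : Zs) :
    ‖restrZs A hA z‖ ≤ ‖z‖ :=
  lp.norm_mono (by norm_num) (fun n => Zn.norm_restr_le (hA n) (z n))

open Classical in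
theorem coordX_restrZs (A : Finset (ℕ × Node)) (hA : ∀ n, DownClosed (sec A n)) (z : Zs)
    (n : ℕ) (t : Node) :
    coordX n t (restrZs A hA z) = if (n, t) ∈ A then coordX n t z else 0 := by
  rw [coordX_apply, restrZs_apply, Zn.toH_restr, coordX_apply]
  by_cases h : (n, t) ∈ A
  · rw [if_pos h, Set.indicator_of_mem (mem_sec.2 h)]
  · rw [if_neg h, Set.indicator_of_notMem (fun h' => h (mem_sec.1 h'))]

theorem restrZs_eq_sum (A : Finset (ℕ × Node)) (hA : ∀ n, DownClosed (sec A n)) (z : Zs) :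
    restrZs A hA z = ∑ a ∈ A, coordX a.1 a.2 z • eZ a.1 a.2 := by
  classical
  apply Zs.ext_coord
  intro n t
  rw [coordX_restrZs, map_sum]
  simp only [map_smul, coordX_eZ, smul_eq_mul]
  have : ∀ a ∈ A, coordX a.1 a.2 z * (if n = a.1 ∧ t = a.2 then (1 : ℝ) else 0)
      = if a = (n, t) then coordX n t z else 0 := by
    intro a _
    by_cases h : a = (n, t)
    · subst h; simp
    · have : ¬ (n = a.1 ∧ t = a.2) := by
        rintro ⟨h1, h2⟩
        exact h (Prod.ext h1.symm h2.symm)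
      simp [h, this]
  rw [Finset.sum_congr rfl this, Finset.sum_ite_eq']

/-- A functional which kills the unit vectors of `A` kills restrictions to `A`. -/
theorem apply_restrZs_eq_zero (A : Finset (ℕ × Node)) (hA : ∀ n, DownClosed (sec A n)) (z : Zs)
    (y : Xs) (hy : ∀ a ∈ A, y (eZ a.1 a.2) = 0) : y (restrZs A hA z) = 0 := by
  rw [restrZs_eq_sum, map_sum]
  apply Finset.sum_eq_zero
  intro a ha
  rw [map_smul, hy a ha, smul_zero]

theorem restrZs_vanish (A : Finset (ℕ × Node)) (hA : ∀ n, DownClosed (sec A n)) (z : Zs) (n : ℕ) :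
    ∀ d, d ∉ sec A n → Zn.toH (restrZs A hA z n) d = 0 := by
  intro d hd
  rw [restrZs_apply, Zn.toH_restr, Set.indicator_of_notMem hd]

/-- Truncation on the l2 sum. -/
noncomputable def trZs (A : Finset (ℕ × Node)) (hA : ∀ n, DownClosed (sec A n)) (u : Zs)
    (hu : ∀ n, ∀ d, d ∉ sec A n → Zn.toH (u n) d = 0) (w : Zs) : Zs :=
  ⟨fun n => Zn.trZ (hA n) (u n) (hu n) (w n),
    (lp.memℓp ((2 : ℝ) • w)).mono' (fun n => by
      have := Zn.norm_trZ_le (hA n) (u n) (hu n) (w n)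
      simpa [norm_smul] using this)⟩

theorem trZs_apply (A : Finset (ℕ × Node)) (hA : ∀ n, DownClosed (sec A n)) (u : Zs)
    (hu : ∀ n, ∀ d, d ∉ sec A n → Zn.toH (u n) d = 0) (w : Zs) (n : ℕ) :
    trZs A hA u hu w n = Zn.trZ (hA n) (u n) (hu n) (w n) := rfl

theorem norm_trZs_le (A : Finset (ℕ × Node)) (hA : ∀ n, DownClosed (sec A n)) (u : Zs)
    (hu : ∀ n, ∀ d, d ∉ sec A n → Zn.toH (u n) d = 0) (w : Zs) :
    ‖trZs A hA u hu w‖ ≤ 2 * ‖w‖ := by
  have h : ‖trZs A hA u hu w‖ ≤ ‖(2 : ℝ) • w‖ :=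
    lp.norm_mono (by norm_num) (fun n => by
      have := Zn.norm_trZ_le (hA n) (u n) (hu n) (w n)
      simpa [norm_smul, trZs_apply] using this)
  simpa [norm_smul] using h

theorem coordX_trZs_of_mem (A : Finset (ℕ × Node)) (hA : ∀ n, DownClosed (sec A n)) (u : Zs)
    (hu : ∀ n, ∀ d, d ∉ sec A n → Zn.toH (u n) d = 0) (w : Zs) (a : ℕ × Node) (ha : a ∈ A) :
    coordX a.1 a.2 (trZs A hA u hu w) = 0 := by
  rw [coordX_apply, trZs_apply]
  exact Zn.trZ_apply_of_mem _ _ _ _ (mem_sec.2 ha)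

theorem trZs_sub_trZs_neg (A : Finset (ℕ × Node)) (hA : ∀ n, DownClosed (sec A n)) (u : Zs)
    (hu : ∀ n, ∀ d, d ∉ sec A n → Zn.toH (u n) d = 0) (w : Zs) :
    trZs A hA u hu w - trZs A hA u hu (-w) = w - restrZs A hA w := by
  ext n
  exact Zn.trZ_sub_trZ_neg (hA n) (u n) (hu n) (w n)

theorem norm_add_smul_trZs_sq_le (A : Finset (ℕ × Node)) (hA : ∀ n, DownClosed (sec A n)) (u : Zs)
    (hu : ∀ n, ∀ d, d ∉ sec A n → Zn.toH (u n) d = 0) (w : Zs) (ε : ℝ) (hε : 0 ≤ ε) :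
    ‖u + ε • trZs A hA u hu w‖ ^ 2 ≤ ‖u‖ ^ 2 + 4 * ε ^ 2 * ‖w‖ ^ 2 := by
  have h1 := Zs.hasSum_norm_sq (u + ε • trZs A hA u hu w)
  have h2 := (Zs.hasSum_norm_sq u).add ((Zs.hasSum_norm_sq w).mul_left (4 * ε ^ 2))
  refine hasSum_le ?_ h1 h2
  intro n
  exact Zn.norm_add_smul_trZ_sq_le (hA n) (u n) (hu n) (w n) ε hε

end Vale.Agent.Lib.P069
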