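import Vale.Agent.Lib.P069.Defs

/-!
# P069: a functional on an l2 sum is the norm-convergent sum of its components
-/

namespace Vale.Agent.Lib.P069

open scoped ENNReal
open Filter

variable {E : ℕ → Type*} [∀ n, NormedAddCommGroup (E n)] [∀ n, NormedSpace ℝ (E n)]

omit [∀ n, NormedSpace ℝ (E n)] in
theorem lp_sum_norm_sq_le' (u : lp E 2) (s : Finset ℕ) : ∑ n ∈ s, ‖u n‖ ^ 2 ≤ ‖u‖ ^ 2 := by
  have h := lp.sum_rpow_le_norm_rpow (p := 2) (by norm_num) u s
  simpa using h

omit [∀ n, NormedSpace ℝ (E n)] in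
theorem lp_norm_sum_single_sq (v : ∀ n, E n) (s : Finset ℕ) :
    ‖∑ n ∈ s, lp.single 2 n (v n)‖ ^ 2 = ∑ n ∈ s, ‖v n‖ ^ 2 := by
  have h := lp.norm_sum_single (p := 2) (by norm_num) v s
  simpa using h

/-- Cauchy-Schwarz bound for a functional on finitely supported vectors. -/
theorem lp_dual_finite_bound (f : StrongDual ℝ (lp E 2)) (u : lp E 2) (r : Finset ℕ) :
    |∑ n ∈ r, f (lp.single 2 n (u n))| ≤
      Real.sqrt (∑ n ∈ r, ‖f ∘L lp.singleContinuousLinearMap ℝ E 2 n‖ ^ 2) * ‖u‖ := by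
  have h1 : |∑ n ∈ r, f (lp.single 2 n (u n))| ≤
      ∑ n ∈ r, ‖f ∘L lp.singleContinuousLinearMap ℝ E 2 n‖ * ‖u n‖ := by
    refine (Finset.abs_sum_le_sum_abs _ _).trans ?_
    apply Finset.sum_le_sum
    intro n _
    have := (f ∘L lp.singleContinuousLinearMap ℝ E 2 n).le_opNorm (u n)
    simpa using this
  refine h1.trans ((Real.sum_mul_le_sqrt_mul_sqrt r _ _).trans ?_)
  gcongr
  rw [Real.sqrt_le_left (norm_nonneg u)]
  exact lp_sum_norm_sq_le' u r

/-- The squares of the norms of the components are summable with sum at most `‖f‖ ^ 2`. -/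
theorem lp_dual_sum_sq_le (f : StrongDual ℝ (lp E 2)) (s : Finset ℕ) :
    ∑ n ∈ s, ‖f ∘L lp.singleContinuousLinearMap ℝ E 2 n‖ ^ 2 ≤ ‖f‖ ^ 2 := by
  set a : ℕ → ℝ := fun n => ‖f ∘L lp.singleContinuousLinearMap ℝ E 2 n‖ with ha
  set S : ℝ := ∑ n ∈ s, a n ^ 2 with hS
  have hS0 : 0 ≤ S := Finset.sum_nonneg (fun n _ => by positivity)
  -- for every θ < 1 : θ * S ≤ ‖f‖ * sqrt S
  have key : ∀ θ : ℝ, 0 < θ → θ < 1 → θ * S ≤ ‖f‖ * Real.sqrt S := by
    intro θ hθ0 hθ1
    have hu : ∀ n, ∃ v : E n, ‖v‖ ≤ 1 ∧ θ * a n ≤ f (lp.single 2 n v) := by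
      intro n
      by_cases h0 : a n = 0
      · exact ⟨0, by simp, by simp [h0]⟩
      · have hpos : 0 < a n := lt_of_le_of_ne (norm_nonneg _) (Ne.symm h0)
        have hlt : θ * a n < ‖f ∘L lp.singleContinuousLinearMap ℝ E 2 n‖ := by
          have : θ * a n < 1 * a n := by gcongr
          simpa using this
        obtain ⟨v, hv, hv'⟩ := ContinuousLinearMap.exists_lt_apply_of_lt_opNorm _ hlt
        rw [Real.norm_eq_abs] at hv'
        rcases le_total 0 ((f ∘L lp.singleContinuousLinearMap ℝ E 2 n) v) with h | h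
        · refine ⟨v, hv.le, ?_⟩
          rw [abs_of_nonneg h] at hv'
          exact hv'.le
        · refine ⟨-v, by rw [norm_neg]; exact hv.le, ?_⟩
          rw [abs_of_nonpos h] at hv'
          have e : f (lp.single 2 n (-v)) = -((f ∘L lp.singleContinuousLinearMap ℝ E 2 n) v) := by
            rw [lp.single_neg, map_neg]; rfl
          rw [e]; exact hv'.le
    choose v hv1 hv2 using hu
    set U : lp E 2 := ∑ n ∈ s, lp.single 2 n (a n • v n) with hU
    have hUn : ‖U‖ ≤ Real.sqrt S := by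
      apply Real.le_sqrt_of_sq_le
      rw [hU, lp_norm_sum_single_sq]
      apply Finset.sum_le_sum
      intro n _
      rw [norm_smul, mul_pow, Real.norm_eq_abs, sq_abs]
      have h1 : ‖v n‖ ^ 2 ≤ 1 := by
        have := norm_nonneg (v n); nlinarith [hv1 n]
      have h2 : 0 ≤ a n ^ 2 := by positivity
      nlinarith
    have hfU : θ * S ≤ f U := by
      rw [hU, map_sum, hS, Finset.mul_sum]
      apply Finset.sum_le_sum
      intro n _
      rw [lp.single_smul, map_smul, smul_eq_mul]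
      have h1 : 0 ≤ a n := norm_nonneg _
      nlinarith [hv2 n]
    have h3 : f U ≤ ‖f‖ * ‖U‖ := by
      refine (le_abs_self _).trans ?_
      rw [← Real.norm_eq_abs]
      exact f.le_opNorm U
    refine hfU.trans (h3.trans ?_)
    gcongr
  -- let θ → 1
  have h1 : S ≤ ‖f‖ * Real.sqrt S := by
    by_contra hcon
    rw [not_le] at hcon
    have hSpos : 0 < S := lt_of_le_of_lt (by positivity) hcon
    set q : ℝ := ‖f‖ * Real.sqrt S / S with hq
    have hq1 : q < 1 := by rw [hq, div_lt_one hSpos]; exact hcon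
    have hq0 : 0 ≤ q := by positivity
    have hθ := key ((q + 1) / 2) (by linarith) (by linarith)
    have : q * S = ‖f‖ * Real.sqrt S := div_mul_cancel₀ _ hSpos.ne'
    nlinarith
  have h6 : Real.sqrt S ≤ ‖f‖ := by
    by_contra hcon
    rw [not_le] at hcon
    have hpos : 0 < Real.sqrt S := lt_of_le_of_lt (norm_nonneg f) hcon
    have : Real.sqrt S * Real.sqrt S = S := Real.mul_self_sqrt hS0
    nlinarith
  calc S = Real.sqrt S ^ 2 := (Real.sq_sqrt hS0).symm
    _ ≤ ‖f‖ ^ 2 := by gcongr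

theorem lp_dual_hasSum (f : StrongDual ℝ (lp E 2)) :
    HasSum (fun n => (f ∘L lp.singleContinuousLinearMap ℝ E 2 n) ∘L lp.evalCLM ℝ E 2 n) f := by
  set a : ℕ → ℝ := fun n => ‖f ∘L lp.singleContinuousLinearMap ℝ E 2 n‖ ^ 2 with ha
  have ha0 : ∀ n, 0 ≤ a n := fun n => by positivity
  have hsum : Summable a := summable_of_sum_le ha0 (lp_dual_sum_sq_le f)
  have hA := hsum.hasSum
  set T : ℝ := ∑' n, a n with hT
  -- the norm estimate
  have hest : ∀ s : Finset ℕ,
      ‖(∑ n ∈ s, (f ∘L lp.singleContinuousLinearMap ℝ E 2 n) ∘L lp.evalCLM ℝ E 2 n) - f‖ ≤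
        Real.sqrt (T - ∑ n ∈ s, a n) := by
    intro s
    refine ContinuousLinearMap.opNorm_le_bound _ (Real.sqrt_nonneg _) ?_
    intro u
    have hu := (lp.hasSum_single (p := 2) (by norm_num) u).mapL f
    have hlim : Tendsto (fun r : Finset ℕ => |∑ n ∈ s, f (lp.single 2 n (u n)) -
        ∑ n ∈ r, f (lp.single 2 n (u n))|) atTop
        (nhds |∑ n ∈ s, f (lp.single 2 n (u n)) - f u|) :=
      (tendsto_const_nhds.sub hu).abs
    have hval : ((∑ n ∈ s, (f ∘L lp.singleContinuousLinearMap ℝ E 2 n) ∘L lp.evalCLM ℝ E 2 n) - f) u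
        = ∑ n ∈ s, f (lp.single 2 n (u n)) - f u := by
      rw [sub_apply, sum_apply]
      rfl
    rw [hval, Real.norm_eq_abs]
    refine le_of_tendsto hlim ?_
    filter_upwards [eventually_ge_atTop s] with r hr
    have hsub : ∑ n ∈ s, f (lp.single 2 n (u n)) - ∑ n ∈ r, f (lp.single 2 n (u n))
        = - ∑ n ∈ r \ s, f (lp.single 2 n (u n)) := by
      rw [← Finset.sum_sdiff hr]; ring
    rw [hsub, abs_neg]
    refine (lp_dual_finite_bound f u (r \ s)).trans ?_
    gcongr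
    have h1 : ∑ n ∈ r \ s, a n + ∑ n ∈ s, a n = ∑ n ∈ r, a n := Finset.sum_sdiff hr
    have h2 : ∑ n ∈ r, a n ≤ T := hsum.sum_le_tsum r (fun n _ => ha0 n)
    have h3 : ∑ n ∈ r \ s, ‖f ∘L lp.singleContinuousLinearMap ℝ E 2 n‖ ^ 2 = ∑ n ∈ r \ s, a n := rfl
    rw [h3]
    linarith
  have hzero : Tendsto (fun s : Finset ℕ => Real.sqrt (T - ∑ n ∈ s, a n)) atTop (nhds 0) := by
    have h1 : Tendsto (fun s : Finset ℕ => T - ∑ n ∈ s, a n) atTop (nhds (T - T)) :=
      tendsto_const_nhds.sub hA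
    rw [sub_self] at h1
    have h2 := (Real.continuous_sqrt.tendsto 0).comp h1
    rwa [Real.sqrt_zero] at h2
  show Tendsto _ atTop _
  rw [tendsto_iff_norm_sub_tendsto_zero]
  exact squeeze_zero (fun s => norm_nonneg _) hest hzero

end Vale.Agent.Lib.P069
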