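import Vale.Agent.Lib.P069.LpDual

/-!
# P069: the l2 sum of reflexive spaces is reflexive
-/

namespace Vale.Agent.Lib.P069

open scoped ENNReal

variable {E : ℕ → Type*} [∀ n, NormedAddCommGroup (E n)] [∀ n, NormedSpace ℝ (E n)]

omit [∀ n, NormedSpace ℝ (E n)] in
theorem lp_sum_norm_sq_le (u : lp E 2) (s : Finset ℕ) : ∑ n ∈ s, ‖u n‖ ^ 2 ≤ ‖u‖ ^ 2 := by
  have h := lp.sum_rpow_le_norm_rpow (p := 2) (by norm_num) u s
  simpa using h

theorem lp_reflexive (h : ∀ n, IsReflexiveSpace (E n)) : IsReflexiveSpace (lp E 2) := by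
  intro Φ
  -- the components of `Φ`
  have hx : ∀ n, ∃ x : E n, ∀ g : StrongDual ℝ (E n), g x = Φ (g ∘L lp.evalCLM ℝ E 2 n) := by
    intro n
    obtain ⟨x, hx⟩ := h n (Φ ∘L (lp.evalCLM ℝ E 2 n).precomp ℝ)
    refine ⟨x, fun g => ?_⟩
    have := congrArg (fun Ψ => Ψ g) hx
    simpa [NormedSpace.dual_def] using this
  choose x hx using hx
  -- square summability
  have hB : ∀ s : Finset ℕ, ∑ n ∈ s, ‖x n‖ ^ 2 ≤ ‖Φ‖ ^ 2 := by
    intro s
    choose g hg1 hg2 using fun n => exists_dual_vector'' ℝ (x n)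
    set S : ℝ := ∑ n ∈ s, ‖x n‖ ^ 2 with hS
    have hS0 : 0 ≤ S := Finset.sum_nonneg (fun n _ => by positivity)
    set f : StrongDual ℝ (lp E 2) := ∑ n ∈ s, ‖x n‖ • (g n ∘L lp.evalCLM ℝ E 2 n) with hf
    have hΦf : Φ f = S := by
      rw [hf, map_sum, hS]
      apply Finset.sum_congr rfl
      intro n _
      rw [map_smul, ← hx n (g n), hg2 n]
      simp [sq]
    have hfn : ‖f‖ ≤ Real.sqrt S := by
      refine ContinuousLinearMap.opNorm_le_bound _ (Real.sqrt_nonneg _) ?_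
      intro u
      have h1 : ‖f u‖ ≤ ∑ n ∈ s, ‖x n‖ * ‖u n‖ := by
        rw [hf, sum_apply]
        refine (norm_sum_le _ _).trans ?_
        apply Finset.sum_le_sum
        intro n _
        have h2 : ‖(g n) (u n)‖ ≤ ‖u n‖ := by
          have := (g n).le_opNorm (u n)
          have h3 := norm_nonneg (u n)
          nlinarith [hg1 n]
        have h4 : (‖x n‖ • (g n ∘L lp.evalCLM ℝ E 2 n)) u = ‖x n‖ * (g n) (u n) := rfl
        rw [h4, norm_mul, norm_norm]
        gcongr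
      refine h1.trans ((Real.sum_mul_le_sqrt_mul_sqrt s _ _).trans ?_)
      gcongr
      rw [Real.sqrt_le_left (norm_nonneg u)]
      exact lp_sum_norm_sq_le u s
    have h5 : S ≤ ‖Φ‖ * Real.sqrt S := by
      have h7 : Φ f ≤ ‖Φ‖ * ‖f‖ := by
        refine (le_abs_self _).trans ?_
        rw [← Real.norm_eq_abs]
        exact Φ.le_opNorm f
      rw [hΦf] at h7
      refine h7.trans ?_
      gcongr
    have h6 : Real.sqrt S ≤ ‖Φ‖ := by
      by_contra hcon
      rw [not_le] at hcon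
      have hpos : 0 < Real.sqrt S := lt_of_le_of_lt (norm_nonneg Φ) hcon
      have : Real.sqrt S * Real.sqrt S = S := Real.mul_self_sqrt hS0
      nlinarith
    calc S = Real.sqrt S ^ 2 := (Real.sq_sqrt hS0).symm
      _ ≤ ‖Φ‖ ^ 2 := by gcongr
  have hmem : Memℓp x 2 := by
    apply memℓp_gen' (C := ‖Φ‖ ^ 2)
    intro s
    simpa using hB s
  refine ⟨⟨x, hmem⟩, ?_⟩
  ext f
  rw [NormedSpace.dual_def]
  have h1 := (lp_dual_hasSum f).mapL Φ
  have h2 := (lp.hasSum_single (p := 2) (by norm_num) (⟨x, hmem⟩ : lp E 2)).mapL f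
  refine h2.unique ?_
  convert h1 using 2 with n
  rw [← hx n]
  rfl

end Vale.Agent.Lib.P069
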