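import Vale.Agent.Lib.P069.Defs

/-!
# P069: bookkeeping for the asymptotic moduli
-/

namespace Vale.Agent.Lib.P069

variable {X : Type*} [NormedAddCommGroup X] [NormedSpace ℝ X]

/-- The whole space as an element of `Cof X`. -/
def Cof.top : Cof X :=
  ⟨⊤, isClosed_univ, by
    have : Subsingleton (X ⧸ (⊤ : Submodule ℝ X)) := Submodule.Quotient.subsingleton_iff.mpr rfl
    infer_instance⟩

instance : Nonempty (Cof X) := ⟨Cof.top⟩

theorem Cof.exists_ne_zero (hX : ¬ FiniteDimensional ℝ X) (F : Cof X) : ∃ y ∈ F.1, y ≠ 0 := by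
  apply Submodule.exists_mem_ne_zero_of_ne_bot
  intro hbot
  apply hX
  have := F.2.2
  exact (Submodule.quotEquivOfEqBot F.1 hbot).finiteDimensional

theorem IsEquivNorm.pos {N : Seminorm ℝ X} (hN : IsEquivNorm N) {x : X} (hx : x ≠ 0) : 0 < N x := by
  obtain ⟨a, b, ha, -, hab⟩ := hN
  exact lt_of_lt_of_le (mul_pos ha (norm_pos_iff.mpr hx)) (hab x).1

theorem IsEquivNorm.normalize {N : Seminorm ℝ X} (hN : IsEquivNorm N) {x : X} (hx : x ≠ 0) :
    N ((N x)⁻¹ • x) = 1 := by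
  have h := hN.pos hx
  rw [map_smul_eq_mul, Real.norm_eq_abs, abs_of_pos (inv_pos.mpr h), inv_mul_cancel₀ h.ne']

theorem Cof.exists_unit (hX : ¬ FiniteDimensional ℝ X) {N : Seminorm ℝ X} (hN : IsEquivNorm N)
    (F : Cof X) : ∃ y ∈ F.1, N y = 1 := by
  obtain ⟨y, hy, hy0⟩ := F.exists_ne_zero hX
  exact ⟨(N y)⁻¹ • y, F.1.smul_mem _ hy, hN.normalize hy0⟩

theorem seminorm_add_smul_le (N : Seminorm ℝ X) {x y : X} (hx : N x = 1) (hy : N y = 1) {t : ℝ}
    (ht : 0 < t) : N (x + t • y) ≤ 1 + t := by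
  calc N (x + t • y) ≤ N x + N (t • y) := map_add_le_add N _ _
    _ = 1 + t := by rw [hx, map_smul_eq_mul, hy, Real.norm_eq_abs, abs_of_pos ht, mul_one]

theorem seminorm_sub_smul_le (N : Seminorm ℝ X) {x y : X} (hx : N x = 1) (hy : N y = 1) {t : ℝ}
    (ht : 0 < t) : N (x - t • y) ≤ 1 + t := by
  calc N (x - t • y) ≤ N x + N (t • y) := map_sub_le_add N _ _
    _ = 1 + t := by rw [hx, map_smul_eq_mul, hy, Real.norm_eq_abs, abs_of_pos ht, mul_one]

theorem isAMUC_of_forall (hX : ¬ FiniteDimensional ℝ X) (N : Seminorm ℝ X) (hN : IsEquivNorm N)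
    (h : ∀ t : ℝ, 0 < t → ∃ c : ℝ, 0 < c ∧ ∀ x : X, N x = 1 → ∃ F : Cof X, ∀ y ∈ F.1, N y = 1 →
      1 + c ≤ max (N (x + t • y)) (N (x - t • y))) : IsAMUC N := by
  intro t ht
  obtain ⟨c, hc, hcx⟩ := h t ht
  refine lt_of_lt_of_le hc ?_
  unfold amucModulus
  have hne : Nonempty {x : X // N x = 1} := by
    obtain ⟨y, -, hy⟩ := (Cof.top : Cof X).exists_unit hX hN
    exact ⟨⟨y, hy⟩⟩
  refine le_ciInf (fun x => ?_)
  obtain ⟨F0, hF0⟩ := hcx x.1 x.2
  have hbdd : BddAbove (Set.range fun F : Cof X => ⨅ y : {y : X // y ∈ F.1 ∧ N y = 1},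
      (max (N (x.1 + t • y.1)) (N (x.1 - t • y.1)) - 1)) := by
    refine ⟨t, ?_⟩
    rintro _ ⟨F, rfl⟩
    obtain ⟨y, hyF, hy⟩ := F.exists_unit hX hN
    have hb : BddBelow (Set.range fun y : {y : X // y ∈ F.1 ∧ N y = 1} =>
        (max (N (x.1 + t • y.1)) (N (x.1 - t • y.1)) - 1)) := by
      refine ⟨-1, ?_⟩
      rintro _ ⟨y, rfl⟩
      have : 0 ≤ max (N (x.1 + t • y.1)) (N (x.1 - t • y.1)) :=
        le_max_of_le_left (apply_nonneg N _)
      simp only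
      linarith
    refine (ciInf_le hb ⟨y, hyF, hy⟩).trans ?_
    have h1 := seminorm_add_smul_le N x.2 hy ht
    have h2 := seminorm_sub_smul_le N x.2 hy ht
    have := max_le h1 h2
    simp only
    linarith
  refine le_ciSup_of_le hbdd F0 ?_
  have hne' : Nonempty {y : X // y ∈ F0.1 ∧ N y = 1} := by
    obtain ⟨y, hyF, hy⟩ := F0.exists_unit hX hN
    exact ⟨⟨y, hyF, hy⟩⟩
  refine le_ciInf (fun y => ?_)
  have := hF0 y.1 y.2.1 y.2.2
  linarith

theorem IsAUC.exists_forall {N : Seminorm ℝ X} (hN : IsEquivNorm N) (h : IsAUC N) (t : ℝ)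
    (ht : 0 < t) : ∃ c : ℝ, 0 < c ∧ ∀ x : X, N x = 1 → ∃ F : Cof X, ∀ y ∈ F.1, N y = 1 →
      1 + c ≤ N (x + t • y) := by
  have hδ := h t ht
  set δ := aucModulus N t with hδdef
  refine ⟨δ / 2, by positivity, fun x hx => ?_⟩
  -- the inner infimum
  let g : {x : X // N x = 1} → Cof X → ℝ := fun x F =>
    ⨅ y : {y : X // y ∈ F.1 ∧ N y = 1}, (N (x.1 + t • y.1) - 1)
  have hb : ∀ (x : {x : X // N x = 1}) (F : Cof X),
      BddBelow (Set.range fun y : {y : X // y ∈ F.1 ∧ N y = 1} => (N (x.1 + t • y.1) - 1)) := by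
    intro x F
    refine ⟨-1, ?_⟩
    rintro _ ⟨y, rfl⟩
    have : 0 ≤ N (x.1 + t • y.1) := apply_nonneg N _
    simp only
    linarith
  have hg_le : ∀ x F, g x F ≤ t := by
    intro x F
    by_cases hne : Nonempty {y : X // y ∈ F.1 ∧ N y = 1}
    · obtain ⟨y⟩ := hne
      refine (ciInf_le (hb x F) y).trans ?_
      have := seminorm_add_smul_le N x.2 y.2.2 ht
      linarith
    · rw [not_nonempty_iff] at hne
      have : g x F = 0 := Real.iInf_of_isEmpty _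
      rw [this]; exact ht.le
  have hg_ge : ∀ x F, -1 ≤ g x F := by
    intro x F
    by_cases hne : Nonempty {y : X // y ∈ F.1 ∧ N y = 1}
    · refine le_ciInf (fun y => ?_)
      have : 0 ≤ N (x.1 + t • y.1) := apply_nonneg N _
      linarith
    · rw [not_nonempty_iff] at hne
      have : g x F = 0 := Real.iInf_of_isEmpty _
      rw [this]; norm_num
  have hbddA : ∀ x, BddAbove (Set.range (g x)) := fun x =>
    ⟨t, by rintro _ ⟨F, rfl⟩; exact hg_le x F⟩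
  have hbddB : BddBelow (Set.range fun x : {x : X // N x = 1} => ⨆ F : Cof X, g x F) := by
    refine ⟨-1, ?_⟩
    rintro _ ⟨x, rfl⟩
    exact le_ciSup_of_le (hbddA x) Cof.top (hg_ge x _)
  have h1 : δ ≤ ⨆ F : Cof X, g ⟨x, hx⟩ F := ciInf_le hbddB ⟨x, hx⟩
  have h2 : δ / 2 < ⨆ F : Cof X, g ⟨x, hx⟩ F := by linarith
  obtain ⟨F, hF⟩ := exists_lt_of_lt_ciSup h2
  refine ⟨F, fun y hyF hy => ?_⟩
  have h3 : g ⟨x, hx⟩ F ≤ N (x + t • y) - 1 := ciInf_le (hb ⟨x, hx⟩ F) ⟨y, hyF, hy⟩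
  linarith

end Vale.Agent.Lib.P069
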