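import Vale.Agent.Lib.P069.Defs

/-!
# P069: weakly null sequences get close to finite-codimensional closed subspaces
-/

namespace Vale.Agent.Lib.P069

variable {X : Type*} [NormedAddCommGroup X] [NormedSpace ℝ X]

theorem exists_near_of_weakly_null (F : Submodule ℝ X) (hF : IsClosed (F : Set X))
    (hfd : FiniteDimensional ℝ (X ⧸ F)) (v : ℕ → X)
    (hv : ∀ φ : StrongDual ℝ X, Filter.Tendsto (fun j => φ (v j)) Filter.atTop (nhds 0))
    (γ : ℝ) (hγ : 0 < γ) : ∃ j, ∃ y ∈ F, ‖v j - y‖ < γ := by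
  have := hF
  have := hfd
  let b := Module.finBasis ℝ (X ⧸ F)
  let e : (X ⧸ F) ≃L[ℝ] (Fin (Module.finrank ℝ (X ⧸ F)) → ℝ) := b.equivFunL
  have h1 : Filter.Tendsto (fun j => e (F.mkQL (v j))) Filter.atTop (nhds 0) := by
    rw [tendsto_pi_nhds]
    intro i
    let φ : StrongDual ℝ X :=
      ((ContinuousLinearMap.proj (R := ℝ) (φ := fun _ : Fin (Module.finrank ℝ (X ⧸ F)) => ℝ) i).comp
        (e : (X ⧸ F) →L[ℝ] (Fin (Module.finrank ℝ (X ⧸ F)) → ℝ))).comp F.mkQL
    exact hv φ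
  have h2 : Filter.Tendsto (fun j => F.mkQL (v j)) Filter.atTop (nhds 0) := by
    have h3 := (e.symm.continuous.tendsto 0).comp h1
    rw [map_zero] at h3
    refine h3.congr (fun j => ?_)
    simp
  have h4 : Filter.Tendsto (fun j => ‖F.mkQL (v j)‖) Filter.atTop (nhds 0) := by
    simpa using h2.norm
  obtain ⟨j, hj⟩ := ((h4.eventually (gt_mem_nhds hγ))).exists
  obtain ⟨m, hm1, hm2⟩ := Submodule.Quotient.norm_mk_lt (F.mkQL (v j))
    (sub_pos.mpr hj)
  refine ⟨j, v j - m, ?_, ?_⟩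
  · have : Submodule.Quotient.mk (p := F) (v j) = Submodule.Quotient.mk m := hm1.symm
    exact (Submodule.Quotient.eq F).mp this
  · have : v j - (v j - m) = m := by abel
    rw [this]
    linarith

end Vale.Agent.Lib.P069
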