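import Vale.Agent.Lib.P069.Global
import Vale.Agent.Lib.P069.Moduli
import Vale.Agent.Lib.P069.WeakNull

/-!
# P069: no equivalent norm on `Xs` is asymptotically uniformly convex
-/

namespace Vale.Agent.Lib.P069

open scoped ENNReal
open Filter

theorem Hs.tendsto_cons (h : Hs) (t : Node) :
    Tendsto (fun j : ℕ => h (j :: t)) atTop (nhds 0) := by
  have hs : Summable (fun d : Node => ‖h d‖ ^ 2) := by
    have := (lp.memℓp h).summable (p := 2) (by norm_num)
    simpa using this
  have h1 := hs.tendsto_cofinite_zero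
  have hinj : Function.Injective (fun j : ℕ => (j :: t : Node)) := by
    intro i j hij
    simpa using hij
  have h2 := h1.comp hinj.tendsto_cofinite
  rw [Nat.cofinite_eq_atTop] at h2
  have h3 := (Real.continuous_sqrt.tendsto 0).comp h2
  rw [Real.sqrt_zero] at h3
  rw [tendsto_zero_iff_norm_tendsto_zero]
  refine h3.congr ?_
  intro j
  simp [Real.sqrt_sq_eq_abs]

theorem coordX_weakly_null (hZ : IsReflexiveSpace Zs) (n : ℕ) (t : Node)
    (φ : StrongDual ℝ Xs) : Tendsto (fun j : ℕ => φ (coordX n (j :: t))) atTop (nhds 0) := by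
  obtain ⟨z, rfl⟩ := hZ φ
  simp only [NormedSpace.dual_def, coordX_apply]
  exact Hs.tendsto_cons _ t

/-- Monotonicity in the parameter coming from convexity of the seminorm. -/
theorem seminorm_convex_step {X : Type*} [AddCommGroup X] [Module ℝ X] (N : Seminorm ℝ X)
    (x y : X) (hx : N x = 1) (t0 s c : ℝ) (ht0 : 0 < t0) (hs : t0 ≤ s) (hc : 0 ≤ c)
    (h : 1 + c ≤ N (x + t0 • y)) : 1 + c ≤ N (x + s • y) := by
  have hs0 : 0 < s := lt_of_lt_of_le ht0 hs
  set l : ℝ := t0 / s with hl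
  have hl0 : 0 < l := by positivity
  have hl1 : l ≤ 1 := by rw [hl, div_le_one hs0]; exact hs
  have e : x + t0 • y = (1 - l) • x + l • (x + s • y) := by
    have : l * s = t0 := div_mul_cancel₀ _ hs0.ne'
    rw [smul_add, smul_smul, this, sub_smul, one_smul]
    abel
  have h1 : N (x + t0 • y) ≤ (1 - l) * 1 + l * N (x + s • y) := by
    rw [e]
    refine (map_add_le_add N _ _).trans ?_
    rw [map_smul_eq_mul, map_smul_eq_mul, hx, Real.norm_eq_abs, Real.norm_eq_abs,
      abs_of_nonneg (by linarith), abs_of_pos hl0]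
  have h2 : c ≤ l * (N (x + s • y) - 1) := by nlinarith
  have h3 : 0 ≤ N (x + s • y) - 1 := by
    by_contra hneg
    rw [not_le] at hneg
    nlinarith
  nlinarith

theorem nonAUC_step (hZ : IsReflexiveSpace Zs) (N : Seminorm ℝ Xs) (a b c : ℝ) (ha : 0 < a)
    (hb : 0 < b) (hab : ∀ x : Xs, a * ‖x‖ ≤ N x ∧ N x ≤ b * ‖x‖) (hc : 0 < c)
    (hauc : ∀ x : Xs, N x = 1 → ∃ F : Cof Xs, ∀ y ∈ F.1, N y = 1 → 1 + c ≤ N (x + (a / (2 * b)) • y))
    (n : ℕ) (t : Node) (ht : t.length ≤ n) :
    ∃ j : ℕ, N (pathX n t) + a * c / 2 ≤ N (pathX n (j :: t)) := by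
  set u := pathX n t with hu
  set ρ := N u with hρ
  have hρa : a ≤ ρ := by
    have h1 := (hab u).1
    have h2 := one_le_norm_pathX n t
    nlinarith
  have hρb : ρ ≤ b := by
    have h1 := (hab u).2
    have h2 := norm_pathX_le n t ht
    nlinarith
  have hρ0 : 0 < ρ := lt_of_lt_of_le ha hρa
  have hxhat : N (ρ⁻¹ • u) = 1 := by
    rw [map_smul_eq_mul, Real.norm_eq_abs, abs_of_pos (inv_pos.2 hρ0)]
    exact inv_mul_cancel₀ hρ0.ne'
  obtain ⟨F, hF⟩ := hauc _ hxhat
  set γ : ℝ := min (a / (2 * b)) (a * c / (2 * b)) with hγ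
  have hγ0 : 0 < γ := by
    apply lt_min <;> positivity
  obtain ⟨j, y', hy'F, hy'⟩ := exists_near_of_weakly_null F.1 F.2.1 F.2.2
    (fun j => coordX n (j :: t)) (coordX_weakly_null hZ n t) γ hγ0
  refine ⟨j, ?_⟩
  set v := coordX n (j :: t) with hv
  have hbγ1 : b * γ ≤ a / 2 := by
    have : γ ≤ a / (2 * b) := min_le_left _ _
    calc b * γ ≤ b * (a / (2 * b)) := by gcongr
      _ = a / 2 := by field_simp
  have hbγ2 : b * γ ≤ a * c / 2 := by
    have : γ ≤ a * c / (2 * b) := min_le_right _ _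
    calc b * γ ≤ b * (a * c / (2 * b)) := by gcongr
      _ = a * c / 2 := by field_simp
  have hNdiff : N (v - y') ≤ b * γ := by
    refine ((hab _).2).trans ?_
    gcongr
  have hNv : a ≤ N v := by
    have h1 := (hab v).1
    have h2 := one_le_norm_coordX n (j :: t)
    nlinarith
  have hNy' : a / 2 ≤ N y' := by
    have h1 : N v ≤ N (v - y') + N y' := by
      have := map_add_le_add N (v - y') y'
      simpa using this
    linarith
  have hNy'0 : 0 < N y' := by linarith
  have hyhat : N ((N y')⁻¹ • y') = 1 := by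
    rw [map_smul_eq_mul, Real.norm_eq_abs, abs_of_pos (inv_pos.2 hNy'0)]
    exact inv_mul_cancel₀ hNy'0.ne'
  have hyhatF : (N y')⁻¹ • y' ∈ F.1 := F.1.smul_mem _ hy'F
  have h1 := hF _ hyhatF hyhat
  have hs : a / (2 * b) ≤ N y' / ρ := by
    rw [div_le_div_iff₀ (by positivity) hρ0]
    nlinarith
  have h2 := seminorm_convex_step N _ _ hxhat (a / (2 * b)) (N y' / ρ) c (by positivity) hs hc.le h1
  have e : u + y' = ρ • (ρ⁻¹ • u + (N y' / ρ) • ((N y')⁻¹ • y')) := by
    rw [smul_add, smul_smul, smul_smul, smul_smul, mul_inv_cancel₀ hρ0.ne', one_smul]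
    have : ρ * (N y' / ρ) * (N y')⁻¹ = 1 := by field_simp
    rw [this, one_smul]
  have h3 : ρ * (1 + c) ≤ N (u + y') := by
    rw [e, map_smul_eq_mul, Real.norm_eq_abs, abs_of_pos hρ0]
    gcongr
  have h4 : N (u + y') ≤ N (u + v) + N (v - y') := by
    have := map_add_le_add N (u + v) (-(v - y'))
    rw [map_neg_eq_map] at this
    have e2 : u + v + -(v - y') = u + y' := by abel
    rwa [e2] at this
  have e3 : pathX n (j :: t) = u + v := by
    rw [hu, hv]; simp only [pathX]; abel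
  rw [e3]
  nlinarith

theorem Xs.not_auc (hZ : IsReflexiveSpace Zs) (N : Seminorm ℝ Xs) (hN : IsEquivNorm N) :
    ¬ IsAUC N := by
  intro hauc
  obtain ⟨a, b, ha, hb, hab⟩ := id hN
  obtain ⟨c, hc, hF⟩ := hauc.exists_forall hN (a / (2 * b)) (by positivity)
  have key : ∀ n k : ℕ, k ≤ n → ∃ t : Node, t.length = k ∧ a + k * (a * c / 2) ≤ N (pathX n t) := by
    intro n k
    induction k with
    | zero =>
      intro _
      refine ⟨[], rfl, ?_⟩
      have h1 := (hab (pathX n [])).1
      have h2 := one_le_norm_pathX n []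
      simp only [Nat.cast_zero, zero_mul, add_zero]
      nlinarith
    | succ k ih =>
      intro hk
      obtain ⟨t, ht, hNt⟩ := ih (by omega)
      obtain ⟨j, hj⟩ := nonAUC_step hZ N a b c ha hb hab hc hF n t (by omega)
      refine ⟨j :: t, by simp [ht], ?_⟩
      push_cast
      linarith
  obtain ⟨n, hn⟩ := exists_nat_gt (b / (a * c / 2))
  obtain ⟨t, ht, hNt⟩ := key n n le_rfl
  have h1 := (hab (pathX n t)).2
  have h2 := norm_pathX_le n t ht.le
  have h3 : b < n * (a * c / 2) := by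
    rwa [div_lt_iff₀ (by positivity)] at hn
  nlinarith

end Vale.Agent.Lib.P069
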