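import Vale.Agent.Lib.P069.Defs

/-!
# P069: basic permanence properties of reflexivity
-/

namespace Vale.Agent.Lib.P069

open NormedSpace

/-- Hilbert spaces are reflexive. -/
theorem reflexive_of_hilbert (H : Type*) [NormedAddCommGroup H] [InnerProductSpace ℝ H]
    [CompleteSpace H] : IsReflexiveSpace H := by
  intro Ψ
  -- `Ψ ∘ toDual` is a continuous linear functional on `H`
  let T : H →L[ℝ] StrongDual ℝ H := LinearMap.mkContinuous
    { toFun := fun x => InnerProductSpace.toDual ℝ H x
      map_add' := fun x y => map_add _ x y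
      map_smul' := fun c x => by simp } 1 (fun x => by simp)
  let g : StrongDual ℝ H := Ψ.comp T
  refine ⟨(InnerProductSpace.toDual ℝ H).symm g, ?_⟩
  ext f
  rw [dual_def]
  obtain ⟨y, rfl⟩ := (InnerProductSpace.toDual ℝ H).surjective f
  rw [InnerProductSpace.toDual_apply_apply, real_inner_comm,
    InnerProductSpace.toDual_symm_apply]
  rfl

/-- Reflexivity passes through continuous linear equivalences. -/
theorem reflexive_of_equiv {E F : Type*} [NormedAddCommGroup E] [NormedSpace ℝ E]
    [NormedAddCommGroup F] [NormedSpace ℝ F] (e : E ≃L[ℝ] F) (hF : IsReflexiveSpace F) :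
    IsReflexiveSpace E := by
  intro Φ
  -- transport `Φ` to the bidual of `F`
  let P : StrongDual ℝ F →L[ℝ] StrongDual ℝ E :=
    (ContinuousLinearMap.compL ℝ E F ℝ).flip (e : E →L[ℝ] F)
  obtain ⟨h, hh⟩ := hF (Φ.comp P)
  refine ⟨e.symm h, ?_⟩
  ext f
  rw [dual_def]
  have h1 := congrArg (fun Θ : StrongDual ℝ (StrongDual ℝ F) =>
    Θ (f.comp (e.symm : F →L[ℝ] E))) hh
  simp only [dual_def] at h1
  have h2 : P (f.comp (e.symm : F →L[ℝ] E)) = f := by
    ext x
    simp [P]
  have h3 : (Φ.comp P) (f.comp (e.symm : F →L[ℝ] E)) = Φ f := by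
    rw [ContinuousLinearMap.comp_apply, h2]
  rw [h3] at h1
  exact h1

/-- The dual of a reflexive space is reflexive. -/
theorem reflexive_dual {E : Type*} [NormedAddCommGroup E] [NormedSpace ℝ E]
    (hE : IsReflexiveSpace E) : IsReflexiveSpace (StrongDual ℝ E) := by
  intro Θ
  refine ⟨Θ.comp (inclusionInDoubleDual ℝ E), ?_⟩
  ext Φ
  obtain ⟨x, rfl⟩ := hE Φ
  rw [dual_def, dual_def]
  rfl

end Vale.Agent.Lib.P069
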