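import Vale.Agent.Lib.P069.AMUC
import Vale.Agent.Lib.P069.NonAUC
import Vale.Agent.Lib.P069.ReflBasic
import Vale.Agent.Lib.P069.LpRefl

/-!
# P069: the space `Xs` is reflexive, its norm is AMUC, and it has no equivalent AUC norm
-/

namespace Vale.Agent.Lib.P069

open scoped ENNReal

theorem Zs.reflexive : IsReflexiveSpace Zs :=
  lp_reflexive (fun n => reflexive_of_equiv (Zn.equivH n) (reflexive_of_hilbert Hs))

theorem Xs.reflexive : IsReflexiveSpace Xs := reflexive_dual Zs.reflexive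

theorem Xs.not_finiteDimensional : ¬ FiniteDimensional ℝ Xs := by
  intro h
  have hli : LinearIndependent ℝ (fun j : ℕ => coordX 0 [j]) := by
    rw [linearIndependent_iff']
    intro s g hg i hi
    have h1 := congrArg (fun y : Xs => y (eZ 0 [i])) hg
    simp only [sum_apply, smul_apply, coordX_eZ, zero_apply, smul_eq_mul] at h1
    rw [Finset.sum_eq_single i] at h1
    · simpa using h1
    · intro j _ hj
      simp [hj]
    · intro hi'
      exact absurd hi hi'
  exact Module.Finite.not_linearIndependent_of_infinite _ hli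

theorem Xs.isEquivNorm_norm : IsEquivNorm (normSeminorm ℝ Xs) :=
  ⟨1, 1, one_pos, one_pos, fun x => by simp⟩

theorem Xs.isAMUC_norm : IsAMUC (normSeminorm ℝ Xs) := by
  refine isAMUC_of_forall Xs.not_finiteDimensional _ Xs.isEquivNorm_norm ?_
  intro t ht
  obtain ⟨c, hc, h⟩ := Xs.amuc_estimate t ht
  exact ⟨c, hc, fun x hx => h x hx⟩

theorem main_counterexample :
    ∃ (X : Type) (_ : NormedAddCommGroup X) (_ : NormedSpace ℝ X) (_ : CompleteSpace X),
      ¬ FiniteDimensional ℝ X ∧ IsReflexiveSpace X ∧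
      (∃ N : Seminorm ℝ X, IsEquivNorm N ∧ IsAMUC N) ∧
      ¬ ∃ N : Seminorm ℝ X, IsEquivNorm N ∧ IsAUC N :=
  ⟨Xs, inferInstance, inferInstance, inferInstance, Xs.not_finiteDimensional, Xs.reflexive,
    ⟨normSeminorm ℝ Xs, Xs.isEquivNorm_norm, Xs.isAMUC_norm⟩,
    fun ⟨N, hN, hauc⟩ => Xs.not_auc Zs.reflexive N hN hauc⟩

end Vale.Agent.Lib.P069
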