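import Vale.Agent.Lib.P069.Space

/-!
# P069: per-tree shrinking lemma
Every continuous functional on `Zn n` is small on vectors vanishing on a large finite set of nodes.
-/

namespace Vale.Agent.Lib.P069

open scoped ENNReal RealInnerProductSpace

theorem Zn.shrink {n : ℕ} (f : StrongDual ℝ (Zn n)) (η : ℝ) (hη : 0 < η) :
    ∃ B : Finset Node, ∀ u : Zn n, (∀ t ∈ B, Zn.toH u t = 0) → |f u| ≤ η * ‖u‖ := by
  classical
  set g : StrongDual ℝ Hs := f ∘L ((Zn.equivH n).symm : Hs →L[ℝ] Zn n) with hg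
  set v : Hs := (InnerProductSpace.toDual ℝ Hs).symm g with hv
  have hfv : ∀ u : Zn n, f u = ⟪v, Zn.toH u⟫ := by
    intro u
    rw [hv, InnerProductSpace.toDual_symm_apply, hg]
    simp only [ContinuousLinearMap.coe_comp, ContinuousLinearEquiv.coe_coe, Function.comp_apply]
    congr 1
  have hsum : HasSum (fun t : Node => lp.single 2 t (v t)) v :=
    lp.hasSum_single (by norm_num) v
  have hev := (hsum : Filter.Tendsto _ _ _).eventually (Metric.ball_mem_nhds v hη)
  obtain ⟨B, hB⟩ := hev.exists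
  refine ⟨B, fun u hu => ?_⟩
  have hzero : ⟪∑ t ∈ B, lp.single 2 t (v t), Zn.toH u⟫ = 0 := by
    rw [sum_inner]
    apply Finset.sum_eq_zero
    intro t ht
    rw [lp.inner_single_left, hu t ht]
    simp
  have hdist : ‖v - ∑ t ∈ B, lp.single 2 t (v t)‖ ≤ η := by
    have := Metric.mem_ball.mp hB
    rw [dist_eq_norm, norm_sub_rev] at this
    exact this.le
  calc |f u| = |⟪v - ∑ t ∈ B, lp.single 2 t (v t), Zn.toH u⟫| := by
        rw [hfv, inner_sub_left, hzero, sub_zero]
    _ ≤ ‖v - ∑ t ∈ B, lp.single 2 t (v t)‖ * ‖Zn.toH u‖ := abs_real_inner_le_norm _ _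
    _ ≤ η * ‖u‖ := by
        apply mul_le_mul hdist (Zn.norm_toH_le u) (norm_nonneg _) hη.le

end Vale.Agent.Lib.P069
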