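import Vale.Agent.Lib.P069.GlobalOps
import Vale.Agent.Lib.P069.LpDual
import Vale.Agent.Lib.P069.ShrinkTree

/-!
# P069: every functional on `Zs` is small on vectors vanishing on a suitable finite set
-/

namespace Vale.Agent.Lib.P069

open scoped ENNReal

/-- The parent-closure of a family of finite sets of nodes. -/
noncomputable def closureSet (s : Finset ℕ) (B : ℕ → Finset Node) : Finset (ℕ × Node) :=
  s.biUnion (fun n => (B n).biUnion (fun t => t.tails.toFinset.image (fun r => (n, r))))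

theorem mem_closureSet {s : Finset ℕ} {B : ℕ → Finset Node} {m : ℕ} {r : Node} :
    (m, r) ∈ closureSet s B ↔ m ∈ s ∧ ∃ b ∈ B m, r <:+ b := by
  unfold closureSet
  simp only [Finset.mem_biUnion, Finset.mem_image, List.mem_toFinset, List.mem_tails,
    Prod.mk.injEq]
  constructor
  · rintro ⟨n, hn, b, hb, r', hr', rfl, rfl⟩
    exact ⟨hn, b, hb, hr'⟩
  · rintro ⟨hm, b, hb, hr⟩
    exact ⟨m, hm, b, hb, r, hr, rfl, rfl⟩

theorem downClosed_closureSet (s : Finset ℕ) (B : ℕ → Finset Node) (n : ℕ) :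
    DownClosed (sec (closureSet s B) n) := by
  intro j t h
  rw [mem_sec, mem_closureSet] at h ⊢
  obtain ⟨hn, b, hb, hr⟩ := h
  exact ⟨hn, b, hb, (List.suffix_cons j t).trans hr⟩

theorem Xs.shrink (x : Xs) (η : ℝ) (hη : 0 < η) :
    ∃ A : Finset (ℕ × Node), (∀ n, DownClosed (sec A n)) ∧
      ∀ W : Zs, (∀ a ∈ A, coordX a.1 a.2 W = 0) → |x W| ≤ η * ‖W‖ := by
  have hs := lp_dual_hasSum (E := Zn) x
  obtain ⟨s, hs⟩ := (hs.eventually (Metric.ball_mem_nhds x (half_pos hη))).exists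
  rw [dist_eq_norm] at hs
  set η' : ℝ := η / (2 * (s.card + 1)) with hη'
  have hη'pos : 0 < η' := by positivity
  choose B hB using fun n => Zn.shrink (x ∘L lp.singleContinuousLinearMap ℝ Zn 2 n) η' hη'pos
  refine ⟨closureSet s B, downClosed_closureSet s B, ?_⟩
  intro W hW
  have h1 : |(∑ n ∈ s, (x ∘L lp.singleContinuousLinearMap ℝ Zn 2 n) ∘L lp.evalCLM ℝ Zn 2 n) W - x W|
      ≤ η / 2 * ‖W‖ := by
    have := ContinuousLinearMap.le_opNorm
      ((∑ n ∈ s, (x ∘L lp.singleContinuousLinearMap ℝ Zn 2 n) ∘L lp.evalCLM ℝ Zn 2 n) - x) W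
    rw [sub_apply, Real.norm_eq_abs] at this
    refine this.trans ?_
    gcongr
  have h2 : |(∑ n ∈ s, (x ∘L lp.singleContinuousLinearMap ℝ Zn 2 n) ∘L lp.evalCLM ℝ Zn 2 n) W|
      ≤ s.card * (η' * ‖W‖) := by
    rw [sum_apply]
    refine (Finset.abs_sum_le_sum_abs _ _).trans ?_
    rw [← nsmul_eq_mul]
    apply Finset.sum_le_card_nsmul
    intro n hn
    have h3 : |(x ∘L lp.singleContinuousLinearMap ℝ Zn 2 n) (W n)| ≤ η' * ‖W n‖ := by
      apply hB n
      intro t ht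
      have := hW (n, t) (mem_closureSet.2 ⟨hn, t, ht, List.suffix_refl t⟩)
      simpa [coordX_apply] using this
    refine le_trans ?_ (h3.trans ?_)
    · exact le_of_eq rfl
    · gcongr
      exact Zs.norm_apply_le W n
  have h4 : (s.card : ℝ) * (η' * ‖W‖) ≤ η / 2 * ‖W‖ := by
    have : (s.card : ℝ) * η' ≤ η / 2 := by
      rw [hη']
      rw [mul_div_assoc', div_le_div_iff₀ (by positivity) (by norm_num)]
      nlinarith
    have hW0 := norm_nonneg W
    nlinarith
  have h5 : |x W| ≤ |(∑ n ∈ s, (x ∘L lp.singleContinuousLinearMap ℝ Zn 2 n) ∘L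
      lp.evalCLM ℝ Zn 2 n) W - x W| + |(∑ n ∈ s, (x ∘L lp.singleContinuousLinearMap ℝ Zn 2 n) ∘L
      lp.evalCLM ℝ Zn 2 n) W| := by
    have := abs_sub_abs_le_abs_sub (x W) ((∑ n ∈ s, (x ∘L lp.singleContinuousLinearMap ℝ Zn 2 n) ∘L
      lp.evalCLM ℝ Zn 2 n) W)
    rw [abs_sub_comm] at this
    linarith
  linarith

end Vale.Agent.Lib.P069
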