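import Vale.Agent.Lib.P069.Tree

/-!
# P069: the spaces `Zn n` (Hilbert space on the tree with the norm
`max (l2 norm) (sup of path sums over nodes of depth at most n)`).
-/

namespace Vale.Agent.Lib.P069

open scoped ENNReal

/-- The Hilbert space of square summable functions on the tree. -/
abbrev Hs := lp (fun _ : Node => ℝ) 2

/-- Bounded functions on the tree. -/
abbrev Bs := lp (fun _ : Node => ℝ) ∞

theorem Hs.abs_apply_le (z : Hs) (d : Node) : |z d| ≤ ‖z‖ := by
  have := lp.norm_apply_le_norm (p := 2) (by norm_num) z d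
  simpa using this

theorem Hs.abs_pathSum_le (z : Hs) (d : Node) : |pathSum z d| ≤ (d.length + 1) * ‖z‖ :=
  Vale.Agent.Lib.P069.abs_pathSum_le z ‖z‖ (Hs.abs_apply_le z) d

/-- path sums cut at depth `n` -/
noncomputable def cutSum (n : ℕ) (z : Node → ℝ) : Node → ℝ :=
  fun t => if t.length ≤ n then pathSum z t else 0

theorem abs_cutSum_le (n : ℕ) (z : Hs) (t : Node) : |cutSum n z t| ≤ (n + 1) * ‖z‖ := by
  unfold cutSum
  split_ifs with h
  · refine (Hs.abs_pathSum_le z t).trans ?_
    have : (t.length : ℝ) ≤ n := by exact_mod_cast h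
    have hz := norm_nonneg z
    nlinarith
  · have hz := norm_nonneg z
    simp only [abs_zero]; positivity

theorem memℓp_cutSum (n : ℕ) (z : Hs) : Memℓp (cutSum n z) ∞ := by
  apply memℓp_infty
  refine ⟨(n + 1) * ‖z‖, ?_⟩
  rintro _ ⟨t, rfl⟩
  simpa using abs_cutSum_le n z t

/-- The linear map sending `z` to its path sums at depth at most `n`. -/
noncomputable def supPart (n : ℕ) : Hs →ₗ[ℝ] Bs where
  toFun z := ⟨cutSum n z, memℓp_cutSum n z⟩
  map_add' z w := by
    ext t
    simp only [cutSum, lp.coeFn_add, Pi.add_apply]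
    split_ifs
    · exact pathSum_add _ _ _
    · simp
  map_smul' c z := by
    ext t
    simp only [cutSum, lp.coeFn_smul, Pi.smul_apply, RingHom.id_apply, smul_eq_mul]
    split_ifs
    · exact pathSum_smul _ _ _
    · simp

theorem supPart_apply (n : ℕ) (z : Hs) (t : Node) : supPart n z t = cutSum n z t := rfl

/-- The space `Zn n`: the carrier is `Hs`, the norm is defined below. -/
def Zn (_n : ℕ) : Type := Hs

namespace Zn

variable {n : ℕ}

noncomputable instance : AddCommGroup (Zn n) := inferInstanceAs (AddCommGroup Hs)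
noncomputable instance : Module ℝ (Zn n) := inferInstanceAs (Module ℝ Hs)

/-- The identity as a linear equivalence. -/
noncomputable def toH : Zn n ≃ₗ[ℝ] Hs := LinearEquiv.refl ℝ Hs

/-- The embedding defining the norm. -/
noncomputable def emb (n : ℕ) : Zn n →ₗ[ℝ] Hs × Bs :=
  LinearMap.prod (toH (n := n)).toLinearMap ((supPart n).comp (toH (n := n)).toLinearMap)

theorem emb_injective (n : ℕ) : Function.Injective (emb n) := by
  intro a b h
  have := congrArg Prod.fst h
  exact (toH (n := n)).injective this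

noncomputable instance : NormedAddCommGroup (Zn n) :=
  NormedAddCommGroup.induced (Zn n) (Hs × Bs) (emb n) (emb_injective n)

noncomputable instance : NormedSpace ℝ (Zn n) :=
  NormedSpace.induced ℝ (Zn n) (Hs × Bs) (emb n)

theorem norm_def (z : Zn n) : ‖z‖ = max ‖toH z‖ ‖supPart n (toH z)‖ := rfl

theorem norm_toH_le (z : Zn n) : ‖toH z‖ ≤ ‖z‖ := by rw [norm_def]; exact le_max_left _ _

theorem abs_pathSum_le_norm (z : Zn n) (t : Node) (ht : t.length ≤ n) :
    |pathSum (toH z) t| ≤ ‖z‖ := by
  rw [norm_def]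
  refine le_trans ?_ (le_max_right _ _)
  have := lp.norm_apply_le_norm (p := ∞) (by simp) (supPart n (toH z)) t
  simpa [supPart_apply, cutSum, ht] using this

theorem norm_le_of (z : Zn n) {C : ℝ} (hC : 0 ≤ C) (h1 : ‖toH z‖ ≤ C)
    (h2 : ∀ t : Node, t.length ≤ n → |pathSum (toH z) t| ≤ C) : ‖z‖ ≤ C := by
  rw [norm_def]
  refine max_le h1 (lp.norm_le_of_forall_le hC ?_)
  intro t
  rw [supPart_apply, Real.norm_eq_abs]
  unfold cutSum
  split_ifs with h
  · exact h2 t h
  · simpa using hC

theorem norm_le_mul (z : Zn n) : ‖z‖ ≤ (n + 1) * ‖toH z‖ := by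
  have hz := norm_nonneg (toH z)
  refine norm_le_of z (by positivity) (by nlinarith) ?_
  intro t ht
  refine (Hs.abs_pathSum_le _ t).trans ?_
  have : (t.length : ℝ) ≤ n := by exact_mod_cast ht
  nlinarith

/-- `Zn n` is linearly homeomorphic to the Hilbert space. -/
noncomputable def equivH (n : ℕ) : Zn n ≃L[ℝ] Hs :=
  (toH (n := n)).toContinuousLinearEquivOfBounds 1 (n + 1)
    (fun z => by simpa using norm_toH_le z)
    (fun z => by simpa using norm_le_mul ((toH (n := n)).symm z))

end Zn

end Vale.Agent.Lib.P069
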