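import Mathlib

/-!
# P069: path sums on the tree of finite sequences and the truncation operator
Nodes are lists of naturals, the parent of `j :: t` is `t`, the root is `[]`.
-/

namespace Vale.Agent.Lib.P069

/-- Nodes of the countably branching tree. -/
abbrev Node := List ℕ

/-- Sum of `z` along the path from the node to the root. -/
def pathSum (z : Node → ℝ) : Node → ℝ
  | [] => z []
  | (j :: t) => z (j :: t) + pathSum z t

@[simp] theorem pathSum_nil (z : Node → ℝ) : pathSum z [] = z [] := rfl
@[simp] theorem pathSum_cons (z : Node → ℝ) (j : ℕ) (t : Node) :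
    pathSum z (j :: t) = z (j :: t) + pathSum z t := rfl

theorem pathSum_add (z w : Node → ℝ) (d : Node) :
    pathSum (z + w) d = pathSum z d + pathSum w d := by
  induction d with
  | nil => simp
  | cons j t ih => simp [ih]; ring

theorem pathSum_smul (c : ℝ) (z : Node → ℝ) (d : Node) :
    pathSum (c • z) d = c * pathSum z d := by
  induction d with
  | nil => simp
  | cons j t ih => simp [ih]; ring

theorem pathSum_neg (z : Node → ℝ) (d : Node) : pathSum (-z) d = - pathSum z d := by
  induction d with
  | nil => simp
  | cons j t ih => simp [ih]; ring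

theorem pathSum_sub (z w : Node → ℝ) (d : Node) :
    pathSum (z - w) d = pathSum z d - pathSum w d := by
  rw [sub_eq_add_neg, pathSum_add, pathSum_neg]; ring

theorem pathSum_zero (d : Node) : pathSum 0 d = 0 := by
  induction d with
  | nil => simp
  | cons j t ih => simp [ih]

/-- A function is determined by its path sums. -/
theorem eq_of_pathSum_eq {z w : Node → ℝ} (h : ∀ d, pathSum z d = pathSum w d) : z = w := by
  funext d
  cases d with
  | nil => simpa using h []
  | cons j t =>
    have h1 := h (j :: t)
    have h2 := h t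
    simp only [pathSum_cons] at h1
    linarith

theorem abs_pathSum_le (z : Node → ℝ) (C : ℝ) (hz : ∀ d, |z d| ≤ C) (d : Node) :
    |pathSum z d| ≤ (d.length + 1) * C := by
  induction d with
  | nil => simpa using hz []
  | cons j t ih =>
    simp only [pathSum_cons, List.length_cons, Nat.cast_add, Nat.cast_one]
    calc |z (j :: t) + pathSum z t| ≤ |z (j :: t)| + |pathSum z t| := abs_add_le _ _
      _ ≤ C + (t.length + 1) * C := add_le_add (hz _) ih
      _ = _ := by ring

/-- Sets of nodes closed under passing to the parent. -/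
def DownClosed (A : Set Node) : Prop := ∀ j t, (j :: t) ∈ A → t ∈ A

open Classical in
theorem pathSum_indicator_of_mem {A : Set Node} (hA : DownClosed A) (w : Node → ℝ) :
    ∀ d, d ∈ A → pathSum (A.indicator w) d = pathSum w d := by
  intro d
  induction d with
  | nil => intro h; simp [h]
  | cons j t ih => intro h; simp [h, ih (hA j t h)]

open Classical in
theorem pathSum_indicator_compl_of_mem {A : Set Node} (hA : DownClosed A) (w : Node → ℝ) :
    ∀ d, d ∈ A → pathSum (Aᶜ.indicator w) d = 0 := by
  intro d
  induction d with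
  | nil => intro h; simp [h]
  | cons j t ih => intro h; simp [h, ih (hA j t h)]

open Classical in
/-- Path sums of the restriction to a down-closed set are `0` or path sums of the function
at a node which is not deeper. -/
theorem pathSum_indicator_cases {A : Set Node} (hA : DownClosed A) (w : Node → ℝ) (d : Node) :
    pathSum (A.indicator w) d = 0 ∨
      ∃ s : Node, s.length ≤ d.length ∧ pathSum (A.indicator w) d = pathSum w s := by
  induction d with
  | nil =>
    by_cases h : ([] : Node) ∈ A
    · right; exact ⟨[], le_rfl, by simp [h]⟩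
    · left; simp [h]
  | cons j t ih =>
    by_cases h : (j :: t) ∈ A
    · right; exact ⟨j :: t, le_rfl, pathSum_indicator_of_mem hA w _ h⟩
    · have e : pathSum (A.indicator w) (j :: t) = pathSum (A.indicator w) t := by simp [h]
      rcases ih with h0 | ⟨s, hs, hs'⟩
      · left; rw [e, h0]
      · right; exact ⟨s, hs.trans (by simp), by rw [e, hs']⟩

theorem abs_pathSum_indicator_le {A : Set Node} (hA : DownClosed A) (w : Node → ℝ) (d : Node)
    (b : ℝ) (hb : 0 ≤ b) (hw : ∀ s : Node, s.length ≤ d.length → |pathSum w s| ≤ b) :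
    |pathSum (A.indicator w) d| ≤ b := by
  rcases pathSum_indicator_cases hA w d with h | ⟨s, hs, h⟩
  · rw [h]; simpa using hb
  · rw [h]; exact hw s hs

theorem indicator_compl_eq_sub (A : Set Node) (w : Node → ℝ) :
    Aᶜ.indicator w = w - A.indicator w := by
  funext d
  by_cases h : d ∈ A <;> simp [h]

theorem abs_pathSum_indicator_compl_le {A : Set Node} (hA : DownClosed A) (w : Node → ℝ)
    (d : Node) (b : ℝ) (hb : 0 ≤ b) (hw : ∀ s : Node, s.length ≤ d.length → |pathSum w s| ≤ b) :
    |pathSum (Aᶜ.indicator w) d| ≤ 2 * b := by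
  rw [indicator_compl_eq_sub, pathSum_sub]
  have h1 := abs_pathSum_indicator_le hA w d b hb hw
  have h2 := hw d le_rfl
  calc |pathSum w d - pathSum (A.indicator w) d|
      ≤ |pathSum w d| + |pathSum (A.indicator w) d| := abs_sub _ _
    _ ≤ 2 * b := by linarith

/-- One-sided truncation: keep the part of `g` whose sign is opposite to the sign of `β`. -/
noncomputable def trunc (β g : ℝ) : ℝ := if 0 ≤ β then min g 0 else max g 0

theorem trunc_zero (β : ℝ) : trunc β 0 = 0 := by unfold trunc; split_ifs <;> simp

theorem abs_trunc_sub_le (β g g' : ℝ) : |trunc β g - trunc β g'| ≤ |g - g'| := by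
  unfold trunc
  split_ifs
  · simpa using abs_min_sub_min_le_max g 0 g' 0
  · exact abs_max_sub_max_le_abs g g' 0

theorem abs_trunc_le (β g : ℝ) : |trunc β g| ≤ |g| := by
  have := abs_trunc_sub_le β g 0
  simpa [trunc_zero] using this

theorem trunc_sub_trunc_neg (β g : ℝ) : trunc β g - trunc β (-g) = g := by
  unfold trunc
  split_ifs
  · rcases le_total g 0 with h | h
    · rw [min_eq_left h, min_eq_right (by linarith)]; ring
    · rw [min_eq_right h, min_eq_left (by linarith)]; ring
  · rcases le_total g 0 with h | h
    · rw [max_eq_right h, max_eq_left (by linarith)]; ring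
    · rw [max_eq_left h, max_eq_right (by linarith)]; ring

theorem abs_add_mul_trunc_le (β g ε : ℝ) (hε : 0 ≤ ε) :
    |β + ε * trunc β g| ≤ max |β| (ε * |g|) := by
  unfold trunc
  split_ifs with hβ
  · rcases le_total g 0 with h | h
    · rw [min_eq_left h, abs_of_nonneg hβ, abs_of_nonpos h]
      have : ε * g ≤ 0 := mul_nonpos_of_nonneg_of_nonpos hε h
      rw [abs_le]
      constructor
      · have := le_max_right β (ε * -g); nlinarith
      · have := le_max_left β (ε * -g); nlinarith
    · rw [min_eq_right h]; simp
  · rw [not_le] at hβ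
    rcases le_total g 0 with h | h
    · rw [max_eq_right h]; simp
    · rw [max_eq_left h, abs_of_neg hβ, abs_of_nonneg h]
      have : 0 ≤ ε * g := mul_nonneg hε h
      rw [abs_le]
      constructor
      · have := le_max_left (-β) (ε * g); nlinarith
      · have := le_max_right (-β) (ε * g); nlinarith

/-- The truncated potential. -/
noncomputable def truncPot (u : Node → ℝ) (A : Set Node) (w : Node → ℝ) (d : Node) : ℝ :=
  trunc (pathSum u d) (pathSum (Aᶜ.indicator w) d)

/-- The truncation operator: the function whose path sums are the truncated potential. -/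
noncomputable def Tr (u : Node → ℝ) (A : Set Node) (w : Node → ℝ) : Node → ℝ
  | [] => truncPot u A w []
  | (j :: t) => truncPot u A w (j :: t) - truncPot u A w t

theorem pathSum_Tr (u : Node → ℝ) (A : Set Node) (w : Node → ℝ) (d : Node) :
    pathSum (Tr u A w) d = truncPot u A w d := by
  induction d with
  | nil => simp [Tr]
  | cons j t ih => simp [Tr, ih]

theorem Tr_eq_zero_of_mem {A : Set Node} (hA : DownClosed A) (u w : Node → ℝ) {d : Node}
    (hd : d ∈ A) : Tr u A w d = 0 := by
  cases d with
  | nil => simp [Tr, truncPot, pathSum_indicator_compl_of_mem hA w _ hd, trunc_zero]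
  | cons j t =>
    simp [Tr, truncPot, pathSum_indicator_compl_of_mem hA w _ hd,
      pathSum_indicator_compl_of_mem hA w _ (hA j t hd), trunc_zero]

theorem abs_Tr_le {A : Set Node} (hA : DownClosed A) (u w : Node → ℝ)
    (hu : ∀ d, d ∉ A → u d = 0) (d : Node) : |Tr u A w d| ≤ |w d| := by
  by_cases hd : d ∈ A
  · rw [Tr_eq_zero_of_mem hA u w hd]; simp
  · cases d with
    | nil =>
      simp only [Tr, truncPot]
      refine (abs_trunc_le _ _).trans ?_
      simp [hd]
    | cons j t =>
      simp only [Tr, truncPot]
      have e : pathSum u (j :: t) = pathSum u t := by simp [hu _ hd]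
      rw [e]
      refine (abs_trunc_sub_le _ _ _).trans ?_
      simp [hd]

theorem Tr_sub_Tr_neg (u : Node → ℝ) (A : Set Node) (w : Node → ℝ) :
    Tr u A w - Tr u A (-w) = Aᶜ.indicator w := by
  apply eq_of_pathSum_eq
  intro d
  rw [pathSum_sub, pathSum_Tr, pathSum_Tr]
  unfold truncPot
  have : Aᶜ.indicator (-w) = - Aᶜ.indicator w := Set.indicator_neg _ _
  rw [this, pathSum_neg, trunc_sub_trunc_neg]

theorem abs_pathSum_add_smul_Tr_le (u : Node → ℝ) (A : Set Node) (w : Node → ℝ) (ε : ℝ)
    (hε : 0 ≤ ε) (d : Node) :
    |pathSum (u + ε • Tr u A w) d| ≤ max |pathSum u d| (ε * |pathSum (Aᶜ.indicator w) d|) := by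
  rw [pathSum_add, pathSum_smul, pathSum_Tr]
  exact abs_add_mul_trunc_le _ _ _ hε

theorem abs_pathSum_Tr_le (u : Node → ℝ) (A : Set Node) (w : Node → ℝ) (d : Node) :
    |pathSum (Tr u A w) d| ≤ |pathSum (Aᶜ.indicator w) d| := by
  rw [pathSum_Tr]; exact abs_trunc_le _ _

end Vale.Agent.Lib.P069
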