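import Vale.Agent.Lib.P069.Space

/-!
# P069: restriction and truncation operators on `Zn n` and the key norm estimate
-/

namespace Vale.Agent.Lib.P069

open scoped ENNReal

namespace Zn

variable {n : ℕ}

/-- An element of `Zn n` built from a function dominated by an element of `Zn n`. -/
noncomputable def ofDom (w : Zn n) (f : Node → ℝ) (hf : ∀ d, |f d| ≤ |toH w d|) : Zn n :=
  (toH (n := n)).symm ⟨f, (lp.memℓp (toH w)).mono' (fun d => by simpa using hf d)⟩

theorem toH_ofDom (w : Zn n) (f : Node → ℝ) (hf : ∀ d, |f d| ≤ |toH w d|) :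
    ((toH (ofDom w f hf) : Hs) : Node → ℝ) = f := rfl

theorem norm_toH_ofDom_le (w : Zn n) (f : Node → ℝ) (hf : ∀ d, |f d| ≤ |toH w d|) :
    ‖toH (ofDom w f hf)‖ ≤ ‖toH w‖ :=
  lp.norm_mono (by norm_num) (fun d => by simpa [toH_ofDom] using hf d)

theorem ext_toH {a b : Zn n} (h : ∀ d, toH a d = toH b d) : a = b := by
  apply (toH (n := n)).injective
  ext d
  exact h d

theorem toH_add_apply (a b : Zn n) (d : Node) : toH (a + b) d = toH a d + toH b d := by
  rw [map_add]; rfl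

theorem toH_sub_apply (a b : Zn n) (d : Node) : toH (a - b) d = toH a d - toH b d := by
  rw [map_sub]; rfl

theorem toH_neg_apply (a : Zn n) (d : Node) : toH (-a) d = - toH a d := by
  rw [map_neg]; rfl

theorem toH_smul_apply (c : ℝ) (a : Zn n) (d : Node) : toH (c • a) d = c * toH a d := by
  rw [map_smul]; rfl

theorem coe_toH_add (a b : Zn n) :
    ((toH (a + b) : Hs) : Node → ℝ) = (toH a : Node → ℝ) + (toH b : Node → ℝ) := by
  funext d; exact toH_add_apply a b d

theorem coe_toH_smul (c : ℝ) (a : Zn n) :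
    ((toH (c • a) : Hs) : Node → ℝ) = c • (toH a : Node → ℝ) := by
  funext d; exact toH_smul_apply c a d

theorem coe_toH_neg (a : Zn n) :
    ((toH (-a) : Hs) : Node → ℝ) = - (toH a : Node → ℝ) := by
  funext d; exact toH_neg_apply a d

/-- Restriction of `w` to the set `A`. -/
noncomputable def restr (A : Set Node) (w : Zn n) : Zn n :=
  ofDom w (A.indicator (toH w)) (fun d => by
    by_cases h : d ∈ A <;> simp [h])

theorem toH_restr (A : Set Node) (w : Zn n) :
    ((toH (restr A w) : Hs) : Node → ℝ) = A.indicator (toH w) := rfl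

theorem norm_restr_le {A : Set Node} (hA : DownClosed A) (w : Zn n) : ‖restr A w‖ ≤ ‖w‖ := by
  refine norm_le_of _ (norm_nonneg _) ((norm_toH_ofDom_le _ _ _).trans (norm_toH_le w)) ?_
  intro t ht
  rw [toH_restr]
  refine abs_pathSum_indicator_le hA _ t _ (norm_nonneg _) ?_
  intro s hs
  exact abs_pathSum_le_norm w s (hs.trans ht)

/-- The truncation operator on `Zn n`. -/
noncomputable def trZ {A : Set Node} (hA : DownClosed A) (u : Zn n)
    (hu : ∀ d, d ∉ A → toH u d = 0) (w : Zn n) : Zn n :=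
  ofDom w (Tr (toH u) A (toH w)) (abs_Tr_le hA _ _ hu)

theorem toH_trZ {A : Set Node} (hA : DownClosed A) (u : Zn n)
    (hu : ∀ d, d ∉ A → toH u d = 0) (w : Zn n) :
    ((toH (trZ hA u hu w) : Hs) : Node → ℝ) = Tr (toH u) A (toH w) := rfl

theorem trZ_apply_of_mem {A : Set Node} (hA : DownClosed A) (u : Zn n)
    (hu : ∀ d, d ∉ A → toH u d = 0) (w : Zn n) {d : Node} (hd : d ∈ A) :
    toH (trZ hA u hu w) d = 0 := by
  rw [toH_trZ]; exact Tr_eq_zero_of_mem hA _ _ hd

theorem trZ_sub_trZ_neg {A : Set Node} (hA : DownClosed A) (u : Zn n)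
    (hu : ∀ d, d ∉ A → toH u d = 0) (w : Zn n) :
    trZ hA u hu w - trZ hA u hu (-w) = w - restr A w := by
  apply ext_toH
  intro d
  rw [toH_sub_apply, toH_sub_apply, toH_trZ, toH_trZ, toH_restr, coe_toH_neg]
  have h := congrFun (Tr_sub_Tr_neg (toH u) A (toH w)) d
  rw [indicator_compl_eq_sub] at h
  simpa using h

theorem abs_pathSum_compl_le {A : Set Node} (hA : DownClosed A) (w : Zn n) (t : Node)
    (ht : t.length ≤ n) : |pathSum (Aᶜ.indicator (toH w)) t| ≤ 2 * ‖w‖ :=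
  abs_pathSum_indicator_compl_le hA _ t _ (norm_nonneg _)
    (fun s hs => abs_pathSum_le_norm w s (hs.trans ht))

theorem norm_trZ_le {A : Set Node} (hA : DownClosed A) (u : Zn n)
    (hu : ∀ d, d ∉ A → toH u d = 0) (w : Zn n) : ‖trZ hA u hu w‖ ≤ 2 * ‖w‖ := by
  have hw := norm_nonneg w
  refine norm_le_of _ (by positivity) ?_ ?_
  · refine (norm_toH_ofDom_le _ _ _).trans ((norm_toH_le w).trans (by linarith))
  · intro t ht
    rw [toH_trZ]
    exact (abs_pathSum_Tr_le _ _ _ _).trans (abs_pathSum_compl_le hA w t ht)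

/-- Orthogonality in the Hilbert norm of functions with disjoint supports. -/
theorem Hs_norm_add_sq (a b : Hs) (h : ∀ d, a d * b d = 0) :
    ‖a + b‖ ^ 2 = ‖a‖ ^ 2 + ‖b‖ ^ 2 := by
  have : inner ℝ a b = 0 := by
    rw [lp.inner_eq_tsum]
    have : ∀ d, inner ℝ (a d) (b d) = 0 := by
      intro d
      have := h d
      simp only [RCLike.inner_apply, conj_trivial]
      linarith
    rw [tsum_congr this, tsum_zero]
  rw [norm_add_sq_real, this]; ring

/-- The key estimate. -/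
theorem norm_add_smul_trZ_sq_le {A : Set Node} (hA : DownClosed A) (u : Zn n)
    (hu : ∀ d, d ∉ A → toH u d = 0) (w : Zn n) (ε : ℝ) (hε : 0 ≤ ε) :
    ‖u + ε • trZ hA u hu w‖ ^ 2 ≤ ‖u‖ ^ 2 + 4 * ε ^ 2 * ‖w‖ ^ 2 := by
  have hu0 := norm_nonneg u
  have hw0 := norm_nonneg w
  set C : ℝ := Real.sqrt (‖u‖ ^ 2 + 4 * ε ^ 2 * ‖w‖ ^ 2) with hC
  have hCsq : C ^ 2 = ‖u‖ ^ 2 + 4 * ε ^ 2 * ‖w‖ ^ 2 := Real.sq_sqrt (by positivity)
  have hC0 : 0 ≤ C := Real.sqrt_nonneg _
  suffices h : ‖u + ε • trZ hA u hu w‖ ≤ C by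
    calc ‖u + ε • trZ hA u hu w‖ ^ 2 ≤ C ^ 2 := by gcongr
      _ = _ := hCsq
  refine norm_le_of _ hC0 ?_ ?_
  · -- Hilbert part
    apply abs_le_of_sq_le_sq' _ hC0 |>.2
    rw [hCsq, map_add, map_smul]
    rw [Hs_norm_add_sq]
    · rw [norm_smul, mul_pow, Real.norm_eq_abs, sq_abs]
      have h1 : ‖toH u‖ ^ 2 ≤ ‖u‖ ^ 2 := by gcongr; exact norm_toH_le u
      have h2 : ‖toH (trZ hA u hu w)‖ ^ 2 ≤ ‖w‖ ^ 2 := by
        gcongr; exact (norm_toH_ofDom_le _ _ _).trans (norm_toH_le w)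
      have h3 : 0 ≤ ε ^ 2 := by positivity
      nlinarith
    · intro d
      by_cases hd : d ∈ A
      · have : toH (trZ hA u hu w) d = 0 := trZ_apply_of_mem hA u hu w hd
        simp [this]
      · simp [hu d hd]
  · intro t ht
    rw [coe_toH_add, coe_toH_smul, toH_trZ]
    refine (abs_pathSum_add_smul_Tr_le _ _ _ ε hε t).trans ?_
    apply max_le
    · apply abs_le_of_sq_le_sq' _ hC0 |>.2
      rw [hCsq]
      have h1 : |pathSum (toH u) t| ^ 2 ≤ ‖u‖ ^ 2 := by
        gcongr; exact abs_pathSum_le_norm u t ht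
      have : 0 ≤ 4 * ε ^ 2 * ‖w‖ ^ 2 := by positivity
      linarith
    · apply abs_le_of_sq_le_sq' _ hC0 |>.2
      rw [hCsq]
      have h1 := abs_pathSum_compl_le hA w t ht
      have h2 : (ε * |pathSum (Aᶜ.indicator (toH w)) t|) ^ 2 ≤ (ε * (2 * ‖w‖)) ^ 2 := by
        gcongr
      nlinarith

end Zn

end Vale.Agent.Lib.P069
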